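/-
S0453 (row 299), work package D1 (helper77): the three-party inequality (L3) for the colouring model
(notes/s0453/PROOF.md, section 3), from the one-dimensional lemma (1D) of section 4.

Model: two finite sets of items `K1` (type 1), `K2` (type 2); a state is a pair of colourings
`σ1 : K1 → Fin 3`, `σ2 : K2 → Fin 3` with `|σ1⁻¹(i)| - |σ2⁻¹(i)| = δ i` for every colour `i`.
Party `i` sees the pair of sets `(σ1⁻¹(i), σ2⁻¹(i))`.
-/
import Mathlib

set_option autoImplicit false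
set_option linter.unusedSectionVars false
open Finset

namespace Crest.Agent.Helper77.S0453

/-- The fibre of a colouring over the colour `i`. -/
def fib {K : Type*} [Fintype K] (σ : K → Fin 3) (i : Fin 3) : Finset K :=
  Finset.univ.filter (fun x => σ x = i)

section Fib
variable {K : Type*} [Fintype K]

lemma mem_fib {σ : K → Fin 3} {i : Fin 3} {x : K} : x ∈ fib σ i ↔ σ x = i := by
  simp [fib]

lemma fib_comp_perm (σ : K → Fin 3) (π : Equiv.Perm K) (i : Fin 3) :
    fib (σ ∘ π) i = (fib σ i).map π.symm.toEmbedding := by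
  ext x
  simp only [mem_fib, Function.comp_apply, mem_map, Equiv.coe_toEmbedding]
  constructor
  · intro h; exact ⟨π x, h, by simp⟩
  · rintro ⟨y, hy, rfl⟩; simpa using hy

lemma card_fib_comp_perm (σ : K → Fin 3) (π : Equiv.Perm K) (i : Fin 3) :
    (fib (σ ∘ π) i).card = (fib σ i).card := by
  rw [fib_comp_perm, card_map]

lemma sum_card_fib (σ : K → Fin 3) : ∑ i, (fib σ i).card = Fintype.card K := by
  have h := Finset.card_eq_sum_card_fiberwise (f := σ) (s := (univ : Finset K)) (t := (univ : Finset (Fin 3)))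
    (fun x _ => mem_univ _)
  rw [Finset.card_univ] at h
  rw [h]
  rfl

lemma fib_comp_swap [DecidableEq K] (σ : K → Fin 3) (x x' : K) (j : Fin 3)
    (h : σ x = j ↔ σ x' = j) : fib (σ ∘ Equiv.swap x x') j = fib σ j := by
  ext y
  simp only [mem_fib, Function.comp_apply]
  by_cases hy : y = x
  · subst hy; rw [Equiv.swap_apply_left]; exact h.symm
  · by_cases hy' : y = x'
    · subst hy'; rw [Equiv.swap_apply_right]; exact h
    · rw [Equiv.swap_apply_of_ne_of_ne hy hy']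

lemma exists_fib_comp_swap [DecidableEq K] (σ : K → Fin 3) (x x' : K) :
    ∃ j, fib (σ ∘ Equiv.swap x x') j = fib σ j := by
  have key : ∀ a b : Fin 3, ∃ j : Fin 3, (a = j ↔ b = j) := by decide
  obtain ⟨j, hj⟩ := key (σ x) (σ x')
  exact ⟨j, fib_comp_swap σ x x' j hj⟩

end Fib

variable {K1 K2 : Type*} [Fintype K1] [DecidableEq K1] [Fintype K2] [DecidableEq K2]

/-- The set of states of the colouring model with defect vector `δ`. -/
def Om (δ : Fin 3 → ℤ) : Finset ((K1 → Fin 3) × (K2 → Fin 3)) :=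
  Finset.univ.filter (fun s => ∀ i, ((fib s.1 i).card : ℤ) - (fib s.2 i).card = δ i)

lemma mem_Om {δ : Fin 3 → ℤ} {s : (K1 → Fin 3) × (K2 → Fin 3)} :
    s ∈ Om δ ↔ ∀ i, ((fib s.1 i).card : ℤ) - (fib s.2 i).card = δ i := by
  simp [Om]

/-- Relabelling the items by a pair of permutations. -/
def act (π1 : Equiv.Perm K1) (π2 : Equiv.Perm K2) (s : (K1 → Fin 3) × (K2 → Fin 3)) :
    (K1 → Fin 3) × (K2 → Fin 3) := (s.1 ∘ π1, s.2 ∘ π2)

lemma act_mem_Om {δ : Fin 3 → ℤ} (π1 : Equiv.Perm K1) (π2 : Equiv.Perm K2)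
    {s : (K1 → Fin 3) × (K2 → Fin 3)} : act π1 π2 s ∈ Om δ ↔ s ∈ Om δ := by
  simp only [mem_Om, act, card_fib_comp_perm]

lemma act_inv_act (π1 : Equiv.Perm K1) (π2 : Equiv.Perm K2) (s : (K1 → Fin 3) × (K2 → Fin 3)) :
    act π1⁻¹ π2⁻¹ (act π1 π2 s) = s := by
  unfold act
  ext x <;> simp

lemma act_act_inv (π1 : Equiv.Perm K1) (π2 : Equiv.Perm K2) (s : (K1 → Fin 3) × (K2 → Fin 3)) :
    act π1 π2 (act π1⁻¹ π2⁻¹ s) = s := by
  unfold act
  ext x <;> simp

lemma sum_act (δ : Fin 3 → ℤ) (π1 : Equiv.Perm K1) (π2 : Equiv.Perm K2)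
    (F : (K1 → Fin 3) × (K2 → Fin 3) → ℝ) :
    ∑ s ∈ Om δ, F (act π1 π2 s) = ∑ s ∈ Om δ, F s := by
  refine Finset.sum_nbij' (act π1 π2) (act π1⁻¹ π2⁻¹) ?_ ?_ ?_ ?_ ?_
  · intro s hs; exact (act_mem_Om π1 π2).2 hs
  · intro s hs; exact (act_mem_Om π1⁻¹ π2⁻¹).2 hs
  · intro s _; exact act_inv_act π1 π2 s
  · intro s _; exact act_act_inv π1 π2 s
  · intro s _; rfl

/-- The class `H` of admissible triples: `g i` vanishes off the state space, depends only on
party `i`'s view, and has mean zero. -/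
def InH (δ : Fin 3 → ℤ) (g : Fin 3 → (K1 → Fin 3) × (K2 → Fin 3) → ℝ) : Prop :=
  (∀ i s, s ∉ Om δ → g i s = 0) ∧
  (∀ i, ∀ s ∈ Om δ, ∀ s' ∈ Om δ, fib s.1 i = fib s'.1 i → fib s.2 i = fib s'.2 i →
      g i s = g i s') ∧
  (∀ i, ∑ s ∈ Om δ, g i s = 0)

/-- squared norm -/
def nrm (δ : Fin 3 → ℤ) (g : Fin 3 → (K1 → Fin 3) × (K2 → Fin 3) → ℝ) : ℝ :=
  ∑ s ∈ Om δ, (g 0 s ^ 2 + g 1 s ^ 2 + g 2 s ^ 2)

/-- the quadratic form `2 Σ|g_i|² - |Σ g_i|²` -/
def Qf (δ : Fin 3 → ℤ) (g : Fin 3 → (K1 → Fin 3) × (K2 → Fin 3) → ℝ) : ℝ :=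
  ∑ s ∈ Om δ, (2 * (g 0 s ^ 2 + g 1 s ^ 2 + g 2 s ^ 2) - (g 0 s + g 1 s + g 2 s) ^ 2)

section Forms
variable {δ : Fin 3 → ℤ} {g h : Fin 3 → (K1 → Fin 3) × (K2 → Fin 3) → ℝ}

lemma InH.sub (hg : InH δ g) (hh : InH δ h) : InH δ (g - h) := by
  refine ⟨fun i s hs => ?_, fun i s hs s' hs' h1 h2 => ?_, fun i => ?_⟩
  · simp [hg.1 i s hs, hh.1 i s hs]
  · simp [hg.2.1 i s hs s' hs' h1 h2, hh.2.1 i s hs s' hs' h1 h2]
  · simp [Finset.sum_sub_distrib, hg.2.2 i, hh.2.2 i]

lemma InH.add (hg : InH δ g) (hh : InH δ h) : InH δ (g + h) := by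
  refine ⟨fun i s hs => ?_, fun i s hs s' hs' h1 h2 => ?_, fun i => ?_⟩
  · simp [hg.1 i s hs, hh.1 i s hs]
  · simp [hg.2.1 i s hs s' hs' h1 h2, hh.2.1 i s hs s' hs' h1 h2]
  · simp [Finset.sum_add_distrib, hg.2.2 i, hh.2.2 i]

lemma InH.smul (hg : InH δ g) (c : ℝ) : InH δ (c • g) := by
  refine ⟨fun i s hs => ?_, fun i s hs s' hs' h1 h2 => ?_, fun i => ?_⟩
  · simp [hg.1 i s hs]
  · simp [hg.2.1 i s hs s' hs' h1 h2]
  · simp [← Finset.mul_sum, hg.2.2 i]

lemma InH.comp_act (hg : InH δ g) (π1 : Equiv.Perm K1) (π2 : Equiv.Perm K2) :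
    InH δ (fun i s => g i (act π1 π2 s)) := by
  refine ⟨fun i s hs => ?_, fun i s hs s' hs' h1 h2 => ?_, fun i => ?_⟩
  · exact hg.1 i _ (fun h => hs ((act_mem_Om π1 π2).1 h))
  · refine hg.2.1 i _ ((act_mem_Om π1 π2).2 hs) _ ((act_mem_Om π1 π2).2 hs') ?_ ?_
    · simp only [act, fib_comp_perm, h1]
    · simp only [act, fib_comp_perm, h2]
  · rw [sum_act δ π1 π2 (fun s => g i s)]; exact hg.2.2 i

lemma nrm_comp_act (π1 : Equiv.Perm K1) (π2 : Equiv.Perm K2) :
    nrm δ (fun i s => g i (act π1 π2 s)) = nrm δ g := by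
  unfold nrm
  exact sum_act δ π1 π2 (fun s => g 0 s ^ 2 + g 1 s ^ 2 + g 2 s ^ 2)

lemma Qf_comp_act (π1 : Equiv.Perm K1) (π2 : Equiv.Perm K2) :
    Qf δ (fun i s => g i (act π1 π2 s)) = Qf δ g := by
  unfold Qf
  exact sum_act δ π1 π2
    (fun s => 2 * (g 0 s ^ 2 + g 1 s ^ 2 + g 2 s ^ 2) - (g 0 s + g 1 s + g 2 s) ^ 2)

lemma nrm_smul (c : ℝ) : nrm δ (c • g) = c ^ 2 * nrm δ g := by
  unfold nrm
  rw [Finset.mul_sum]
  refine Finset.sum_congr rfl (fun s _ => ?_)
  simp only [Pi.smul_apply, smul_eq_mul]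
  ring

lemma Qf_smul (c : ℝ) : Qf δ (c • g) = c ^ 2 * Qf δ g := by
  unfold Qf
  rw [Finset.mul_sum]
  refine Finset.sum_congr rfl (fun s _ => ?_)
  simp only [Pi.smul_apply, smul_eq_mul]
  ring

lemma nrm_parallelogram : nrm δ (g - h) + nrm δ (g + h) = 2 * nrm δ g + 2 * nrm δ h := by
  unfold nrm
  rw [Finset.mul_sum, Finset.mul_sum, ← Finset.sum_add_distrib, ← Finset.sum_add_distrib]
  refine Finset.sum_congr rfl (fun s _ => ?_)
  simp only [Pi.sub_apply, Pi.add_apply]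
  ring

lemma Qf_parallelogram : Qf δ (g - h) + Qf δ (g + h) = 2 * Qf δ g + 2 * Qf δ h := by
  unfold Qf
  rw [Finset.mul_sum, Finset.mul_sum, ← Finset.sum_add_distrib, ← Finset.sum_add_distrib]
  refine Finset.sum_congr rfl (fun s _ => ?_)
  simp only [Pi.sub_apply, Pi.add_apply]
  ring

lemma nrm_nonneg : 0 ≤ nrm δ g := by
  unfold nrm
  exact Finset.sum_nonneg (fun s _ => by positivity)

lemma eq_zero_of_nrm_eq_zero (h0 : nrm δ g = 0) : ∀ i, ∀ s ∈ Om δ, g i s = 0 := by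
  unfold nrm at h0
  rw [Finset.sum_eq_zero_iff_of_nonneg (fun s _ => by positivity)] at h0
  intro i s hs
  have h1 := h0 s hs
  have h2 : g 0 s = 0 ∧ g 1 s = 0 ∧ g 2 s = 0 := by
    refine ⟨?_, ?_, ?_⟩ <;> nlinarith [sq_nonneg (g 0 s), sq_nonneg (g 1 s), sq_nonneg (g 2 s)]
  fin_cases i
  · exact h2.1
  · exact h2.2.1
  · exact h2.2.2

lemma Qf_eq_zero_of_nrm_eq_zero (h0 : nrm δ g = 0) : Qf δ g = 0 := by
  have hz := eq_zero_of_nrm_eq_zero h0
  unfold Qf
  refine Finset.sum_eq_zero (fun s hs => ?_)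
  rw [hz 0 s hs, hz 1 s hs, hz 2 s hs]
  ring

end Forms

section Antisym
variable {δ : Fin 3 → ℤ} {g : Fin 3 → (K1 → Fin 3) × (K2 → Fin 3) → ℝ}

/-- pointwise bound: if at every state one of the three values vanishes, the form is `≥ 0`. -/
lemma Qf_nonneg_of_exists_zero (hz : ∀ s ∈ Om δ, ∃ j, g j s = 0) : 0 ≤ Qf δ g := by
  unfold Qf
  refine Finset.sum_nonneg (fun s hs => ?_)
  obtain ⟨j, hj⟩ := hz s hs
  have h3 : ∀ j : Fin 3, j = 0 ∨ j = 1 ∨ j = 2 := by decide
  rcases h3 j with rfl | rfl | rfl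
  · rw [hj]; nlinarith [sq_nonneg (g 1 s - g 2 s)]
  · rw [hj]; nlinarith [sq_nonneg (g 0 s - g 2 s)]
  · rw [hj]; nlinarith [sq_nonneg (g 0 s - g 1 s)]

/-- (3.2): the antisymmetric case. -/
lemma Qf_nonneg_of_antisym (hg : InH δ g) (π1 : Equiv.Perm K1) (π2 : Equiv.Perm K2)
    (hfix : ∀ s : (K1 → Fin 3) × (K2 → Fin 3),
      ∃ j, fib (act π1 π2 s).1 j = fib s.1 j ∧ fib (act π1 π2 s).2 j = fib s.2 j)
    (hanti : ∀ i, ∀ s ∈ Om δ, g i (act π1 π2 s) = - g i s) : 0 ≤ Qf δ g := by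
  refine Qf_nonneg_of_exists_zero (fun s hs => ?_)
  obtain ⟨j, h1, h2⟩ := hfix s
  refine ⟨j, ?_⟩
  have e1 := hg.2.1 j _ ((act_mem_Om π1 π2).2 hs) s hs h1 h2
  have e2 := hanti j s hs
  linarith

lemma hfix_swap1 (x x' : K1) (s : (K1 → Fin 3) × (K2 → Fin 3)) :
    ∃ j, fib (act (Equiv.swap x x') (1 : Equiv.Perm K2) s).1 j = fib s.1 j ∧
      fib (act (Equiv.swap x x') (1 : Equiv.Perm K2) s).2 j = fib s.2 j := by
  obtain ⟨j, hj⟩ := exists_fib_comp_swap s.1 x x'
  exact ⟨j, hj, by simp [act]⟩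

lemma hfix_swap2 (y y' : K2) (s : (K1 → Fin 3) × (K2 → Fin 3)) :
    ∃ j, fib (act (1 : Equiv.Perm K1) (Equiv.swap y y') s).1 j = fib s.1 j ∧
      fib (act (1 : Equiv.Perm K1) (Equiv.swap y y') s).2 j = fib s.2 j := by
  obtain ⟨j, hj⟩ := exists_fib_comp_swap s.2 y y'
  exact ⟨j, by simp [act], hj⟩

end Antisym

section Minimiser
variable {δ : Fin 3 → ℤ}

private lemma isClosed_forall' {X : Type*} {ι : Sort*} [TopologicalSpace X] {P : ι → X → Prop}
    (h : ∀ i, IsClosed {x | P i x}) : IsClosed {x | ∀ i, P i x} := by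
  rw [Set.ofPred_forall]; exact isClosed_iInter h

private lemma isClosed_imp' {X : Type*} [TopologicalSpace X] (A : Prop) {P : X → Prop}
    (h : IsClosed {x | P x}) : IsClosed {x | A → P x} := by
  by_cases hA : A <;> simp [hA, h]

lemma continuous_nrm : Continuous (nrm (K1 := K1) (K2 := K2) δ) := by
  unfold nrm
  exact continuous_finsetSum _ (fun s _ => by fun_prop)

lemma continuous_Qf : Continuous (Qf (K1 := K1) (K2 := K2) δ) := by
  unfold Qf
  exact continuous_finsetSum _ (fun s _ => by fun_prop)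

lemma isClosed_InH : IsClosed {g : Fin 3 → (K1 → Fin 3) × (K2 → Fin 3) → ℝ | InH δ g} := by
  unfold InH
  refine IsClosed.and ?_ (IsClosed.and ?_ ?_)
  · exact isClosed_forall' fun i => isClosed_forall' fun s => isClosed_imp' _
      (isClosed_eq (by fun_prop) continuous_const)
  · exact isClosed_forall' fun i => isClosed_forall' fun s => isClosed_imp' _ <|
      isClosed_forall' fun s' => isClosed_imp' _ <| isClosed_imp' _ <| isClosed_imp' _ <|
        isClosed_eq (by fun_prop) (by fun_prop)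
  · exact isClosed_forall' fun i =>
      isClosed_eq (continuous_finsetSum _ fun s _ => by fun_prop) continuous_const

lemma sq_le_nrm (g : Fin 3 → (K1 → Fin 3) × (K2 → Fin 3) → ℝ) (i : Fin 3)
    {s : (K1 → Fin 3) × (K2 → Fin 3)} (hs : s ∈ Om δ) : g i s ^ 2 ≤ nrm δ g := by
  have h1 : g 0 s ^ 2 + g 1 s ^ 2 + g 2 s ^ 2 ≤ nrm δ g := by
    unfold nrm
    exact Finset.single_le_sum (f := fun s => g 0 s ^ 2 + g 1 s ^ 2 + g 2 s ^ 2)
      (fun s _ => by positivity) hs
  have h3 : ∀ j : Fin 3, j = 0 ∨ j = 1 ∨ j = 2 := by decide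
  rcases h3 i with rfl | rfl | rfl <;>
    nlinarith [sq_nonneg (g 0 s), sq_nonneg (g 1 s), sq_nonneg (g 2 s)]

/-- existence of a minimiser of the form on the unit sphere of `H` (if the form is somewhere
negative). -/
lemma exists_minimiser (g0 : Fin 3 → (K1 → Fin 3) × (K2 → Fin 3) → ℝ) (h0 : InH δ g0)
    (hneg : Qf δ g0 < 0) :
    ∃ v : Fin 3 → (K1 → Fin 3) × (K2 → Fin 3) → ℝ, InH δ v ∧ nrm δ v = 1 ∧ Qf δ v < 0 ∧
      ∀ g : Fin 3 → (K1 → Fin 3) × (K2 → Fin 3) → ℝ, InH δ g → Qf δ v * nrm δ g ≤ Qf δ g := by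
  set T : Set (Fin 3 → (K1 → Fin 3) × (K2 → Fin 3) → ℝ) := {g | InH δ g ∧ nrm δ g = 1} with hT
  have hTclosed : IsClosed T :=
    IsClosed.and isClosed_InH (isClosed_eq continuous_nrm continuous_const)
  have hTc : IsCompact T := by
    refine IsCompact.of_isClosed_subset
      (isCompact_univ_pi (fun _ : Fin 3 => isCompact_univ_pi
        (fun _ : (K1 → Fin 3) × (K2 → Fin 3) => isCompact_Icc (a := (-1 : ℝ)) (b := 1))))
      hTclosed ?_
    rintro g ⟨hg, hn⟩
    rw [Set.mem_univ_pi]; intro i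
    rw [Set.mem_univ_pi]; intro s
    by_cases hs : s ∈ Om δ
    · have := sq_le_nrm g i hs
      rw [hn] at this
      constructor <;> nlinarith
    · rw [hg.1 i s hs]; constructor <;> norm_num
  have hr0 : 0 < nrm δ g0 := by
    rcases (nrm_nonneg (δ := δ) (g := g0)).lt_or_eq with h | h
    · exact h
    · rw [Qf_eq_zero_of_nrm_eq_zero h.symm] at hneg; exact absurd hneg (lt_irrefl 0)
  have hscale : ∀ g, InH δ g → 0 < nrm δ g →
      (1 / Real.sqrt (nrm δ g)) • g ∈ T ∧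
        Qf δ ((1 / Real.sqrt (nrm δ g)) • g) = Qf δ g / nrm δ g := by
    intro g hg hr
    have hsq : (1 / Real.sqrt (nrm δ g)) ^ 2 = 1 / nrm δ g := by
      rw [div_pow, one_pow, Real.sq_sqrt hr.le]
    refine ⟨⟨hg.smul _, ?_⟩, ?_⟩
    · rw [nrm_smul, hsq]; field_simp
    · rw [Qf_smul, hsq]; field_simp
  have hne : T.Nonempty := ⟨_, (hscale g0 h0 hr0).1⟩
  obtain ⟨v, hvT, hvmin⟩ := hTc.exists_isMinOn hne continuous_Qf.continuousOn
  have hvmin' : ∀ g ∈ T, Qf δ v ≤ Qf δ g := fun g hg => hvmin hg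
  refine ⟨v, hvT.1, hvT.2, ?_, ?_⟩
  · have h1 := hvmin' _ (hscale g0 h0 hr0).1
    rw [(hscale g0 h0 hr0).2] at h1
    have : Qf δ g0 / nrm δ g0 < 0 := div_neg_of_neg_of_pos hneg hr0
    linarith
  · intro g hg
    rcases (nrm_nonneg (δ := δ) (g := g)).lt_or_eq with hr | hr
    · have h1 := hvmin' _ (hscale g hg hr).1
      rw [(hscale g hg hr).2, le_div_iff₀ hr] at h1
      exact h1
    · rw [← hr, Qf_eq_zero_of_nrm_eq_zero hr.symm]; simp

/-- (3.3): the minimiser is invariant under an involution of the state space for which the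
antisymmetric case is known. -/
lemma minimiser_invariant (v : Fin 3 → (K1 → Fin 3) × (K2 → Fin 3) → ℝ) (hv : InH δ v)
    (hn : nrm δ v = 1) (hq : Qf δ v < 0)
    (hmin : ∀ g : Fin 3 → (K1 → Fin 3) × (K2 → Fin 3) → ℝ, InH δ g → Qf δ v * nrm δ g ≤ Qf δ g)
    (π1 : Equiv.Perm K1) (π2 : Equiv.Perm K2) (hinv1 : π1 * π1 = 1) (hinv2 : π2 * π2 = 1)
    (hfix : ∀ s : (K1 → Fin 3) × (K2 → Fin 3),
      ∃ j, fib (act π1 π2 s).1 j = fib s.1 j ∧ fib (act π1 π2 s).2 j = fib s.2 j) :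
    ∀ i, ∀ s ∈ Om δ, v i (act π1 π2 s) = v i s := by
  set w : Fin 3 → (K1 → Fin 3) × (K2 → Fin 3) → ℝ := fun i s => v i (act π1 π2 s) with hw
  have hwH : InH δ w := hv.comp_act π1 π2
  have hwQ : Qf δ w = Qf δ v := Qf_comp_act π1 π2
  have hwn : nrm δ w = nrm δ v := nrm_comp_act π1 π2
  have hd := hmin (v - w) (hv.sub hwH)
  have he := hmin (v + w) (hv.add hwH)
  have hpQ := Qf_parallelogram (δ := δ) (g := v) (h := w)
  have hpn := nrm_parallelogram (δ := δ) (g := v) (h := w)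
  have hact : ∀ s : (K1 → Fin 3) × (K2 → Fin 3), act π1 π2 (act π1 π2 s) = s := by
    intro s
    have h1 : ∀ x, π1 (π1 x) = x := fun x => by
      have := congrArg (fun f : Equiv.Perm K1 => f x) hinv1
      simpa using this
    have h2 : ∀ x, π2 (π2 x) = x := fun x => by
      have := congrArg (fun f : Equiv.Perm K2 => f x) hinv2
      simpa using this
    unfold act
    ext x <;> simp [h1, h2]
  have hanti : ∀ i, ∀ s ∈ Om δ, (v - w) i (act π1 π2 s) = - (v - w) i s := by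
    intro i s _
    simp only [Pi.sub_apply, hw, hact]
    ring
  have hQd : 0 ≤ Qf δ (v - w) := Qf_nonneg_of_antisym (hv.sub hwH) π1 π2 hfix hanti
  have hnd : 0 ≤ nrm δ (v - w) := nrm_nonneg
  have hne : 0 ≤ nrm δ (v + w) := nrm_nonneg
  rw [hwQ] at hpQ
  rw [hwn, hn] at hpn
  have hnd0 : nrm δ (v - w) = 0 := by
    by_contra hne0
    have hpos : 0 < nrm δ (v - w) := lt_of_le_of_ne hnd (Ne.symm hne0)
    -- Qf d = 4q - Qf e ≤ 4 q - q * nrm e = q * nrm d < 0
    have h1 : Qf δ (v - w) ≤ Qf δ v * nrm δ (v - w) := by nlinarith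
    nlinarith
  intro i s hs
  have := eq_zero_of_nrm_eq_zero hnd0 i s hs
  simp only [Pi.sub_apply, hw] at this
  linarith

end Minimiser

section Levels
variable {δ : Fin 3 → ℤ}

lemma act_one_one (s : (K1 → Fin 3) × (K2 → Fin 3)) :
    act (1 : Equiv.Perm K1) (1 : Equiv.Perm K2) s = s := by
  unfold act
  ext x <;> simp

lemma act_mul (π1 ρ1 : Equiv.Perm K1) (π2 ρ2 : Equiv.Perm K2)
    (s : (K1 → Fin 3) × (K2 → Fin 3)) :
    act (π1 * ρ1) (π2 * ρ2) s = act ρ1 ρ2 (act π1 π2 s) := by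
  unfold act
  ext x <;> simp

/-- invariance under transpositions gives invariance under all relabellings. -/
lemma invariant_perm (v : Fin 3 → (K1 → Fin 3) × (K2 → Fin 3) → ℝ)
    (h1 : ∀ x x' : K1, ∀ i, ∀ s ∈ Om δ, v i (act (Equiv.swap x x') (1 : Equiv.Perm K2) s) = v i s)
    (h2 : ∀ y y' : K2, ∀ i, ∀ s ∈ Om δ, v i (act (1 : Equiv.Perm K1) (Equiv.swap y y') s) = v i s) :
    ∀ (π1 : Equiv.Perm K1) (π2 : Equiv.Perm K2), ∀ i, ∀ s ∈ Om δ, v i (act π1 π2 s) = v i s := by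
  have hA : ∀ π1 : Equiv.Perm K1, ∀ i, ∀ s ∈ Om δ,
      v i (act π1 (1 : Equiv.Perm K2) s) = v i s := by
    intro π1
    induction π1 using Equiv.Perm.swap_induction_on with
    | one => intro i s _; rw [act_one_one]
    | swap_mul f x y _ ih =>
      intro i s hs
      have e : act (Equiv.swap x y * f) (1 : Equiv.Perm K2) s
          = act f 1 (act (Equiv.swap x y) 1 s) := by
        have := act_mul (Equiv.swap x y) f (1 : Equiv.Perm K2) 1 s
        simpa using this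
      rw [e, ih i _ ((act_mem_Om _ _).2 hs), h1 x y i s hs]
  have hB : ∀ π2 : Equiv.Perm K2, ∀ i, ∀ s ∈ Om δ,
      v i (act (1 : Equiv.Perm K1) π2 s) = v i s := by
    intro π2
    induction π2 using Equiv.Perm.swap_induction_on with
    | one => intro i s _; rw [act_one_one]
    | swap_mul f x y _ ih =>
      intro i s hs
      have e : act (1 : Equiv.Perm K1) (Equiv.swap x y * f) s
          = act 1 f (act 1 (Equiv.swap x y) s) := by
        have := act_mul (1 : Equiv.Perm K1) 1 (Equiv.swap x y) f s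
        simpa using this
      rw [e, ih i _ ((act_mem_Om _ _).2 hs), h2 x y i s hs]
  intro π1 π2 i s hs
  have e : act π1 π2 s = act π1 1 (act 1 π2 s) := by
    have := act_mul (1 : Equiv.Perm K1) π1 π2 (1 : Equiv.Perm K2) s
    simpa using this
  rw [e, hA π1 i _ ((act_mem_Om _ _).2 hs), hB π2 i s hs]

lemma exists_perm_mem_iff {K : Type*} [Fintype K] [DecidableEq K] (A A' : Finset K)
    (h : A'.card = A.card) : ∃ π : Equiv.Perm K, ∀ x, π x ∈ A ↔ x ∈ A' := by
  have e : {x // x ∈ A'} ≃ {x // x ∈ A} := Fintype.equivOfCardEq (by simpa using h)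
  refine ⟨e.extendSubtype, fun x => ?_⟩
  constructor
  · intro hx; by_contra hx'; exact e.extendSubtype_not_mem x hx' hx
  · intro hx; exact e.extendSubtype_mem x hx

/-- a fully symmetric admissible triple is a function of the levels. -/
lemma level_function (v : Fin 3 → (K1 → Fin 3) × (K2 → Fin 3) → ℝ) (hv : InH δ v)
    (hperm : ∀ (π1 : Equiv.Perm K1) (π2 : Equiv.Perm K2), ∀ i, ∀ s ∈ Om δ,
      v i (act π1 π2 s) = v i s) :
    ∃ u : Fin 3 → ℕ → ℝ, ∀ i, ∀ s ∈ Om δ, v i s = u i (fib s.1 i).card := by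
  have key : ∀ i, ∀ s ∈ Om δ, ∀ s' ∈ Om δ, (fib s.1 i).card = (fib s'.1 i).card →
      v i s = v i s' := by
    intro i s hs s' hs' hc
    have hc2 : (fib s.2 i).card = (fib s'.2 i).card := by
      have a := mem_Om.1 hs i
      have b := mem_Om.1 hs' i
      rw [hc] at a
      have : ((fib s.2 i).card : ℤ) = (fib s'.2 i).card := by linarith
      exact_mod_cast this
    obtain ⟨π1, hπ1⟩ := exists_perm_mem_iff (fib s.1 i) (fib s'.1 i) hc.symm
    obtain ⟨π2, hπ2⟩ := exists_perm_mem_iff (fib s.2 i) (fib s'.2 i) hc2.symm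
    have hs'' : act π1 π2 s ∈ Om δ := (act_mem_Om π1 π2).2 hs
    rw [← hperm π1 π2 i s hs]
    refine hv.2.1 i _ hs'' s' hs' ?_ ?_
    · ext x
      simp only [act, mem_fib, Function.comp_apply]
      rw [← mem_fib, hπ1, mem_fib]
    · ext x
      simp only [act, mem_fib, Function.comp_apply]
      rw [← mem_fib, hπ2, mem_fib]
  classical
  refine ⟨fun i n => if h : ∃ s ∈ Om δ, (fib s.1 i).card = n then v i h.choose else 0,
    fun i s hs => ?_⟩
  have hex : ∃ s' ∈ Om δ, (fib s'.1 i).card = (fib s.1 i).card := ⟨s, hs, rfl⟩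
  show v i s = if h : ∃ s' ∈ Om δ, (fib s'.1 i).card = (fib s.1 i).card then v i h.choose else 0
  rw [dif_pos hex]
  exact key i s hs _ hex.choose_spec.1 hex.choose_spec.2.symm

end Levels

section Count

/-- number of colourings with prescribed fibre sizes -/
def cnt (K : Type*) [Fintype K] [DecidableEq K] (a : Fin 3 → ℕ) : ℕ :=
  (Finset.univ.filter (fun σ : K → Fin 3 => ∀ i, (fib σ i).card = a i)).card

private lemma fin3_ite (t : Fin 3) :
    (if t = 0 then (0 : Fin 3) else if t = 1 then 1 else 2) = t := by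
  revert t; decide

lemma cnt_eq_choose {K : Type*} [Fintype K] [DecidableEq K] (a : Fin 3 → ℕ)
    (ha : a 0 + a 1 + a 2 = Fintype.card K) :
    cnt K a = (Fintype.card K).choose (a 0) * (Fintype.card K - a 0).choose (a 1) := by
  unfold cnt
  set L := Finset.univ.filter (fun σ : K → Fin 3 => ∀ i, (fib σ i).card = a i) with hL
  have hmaps : (L : Set (K → Fin 3)).MapsTo (fun σ => fib σ 0)
      (powersetCard (a 0) (univ : Finset K)) := by
    intro σ hσ
    rw [Finset.mem_coe] at hσ ⊢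
    rw [mem_powersetCard]
    exact ⟨subset_univ _, (Finset.mem_filter.1 hσ).2 0⟩
  rw [Finset.card_eq_sum_card_fiberwise hmaps]
  have hterm : ∀ A ∈ powersetCard (a 0) (univ : Finset K),
      (L.filter (fun σ => fib σ 0 = A)).card = (Fintype.card K - a 0).choose (a 1) := by
    intro A hA
    rw [mem_powersetCard] at hA
    have hAc : (univ \ A).card = Fintype.card K - a 0 := by
      rw [Finset.card_sdiff_of_subset (subset_univ _), Finset.card_univ, hA.2]
    rw [← hAc, ← card_powersetCard]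
    refine Finset.card_nbij' (fun σ => fib σ 1)
      (fun B => fun x => if x ∈ A then 0 else if x ∈ B then 1 else 2) ?_ ?_ ?_ ?_
    · intro σ hσ
      rw [Finset.mem_coe] at hσ ⊢
      rw [Finset.mem_filter, hL, Finset.mem_filter] at hσ
      rw [mem_powersetCard]
      refine ⟨fun x hx => ?_, hσ.1.2 1⟩
      rw [mem_sdiff]
      refine ⟨mem_univ _, fun hxA => ?_⟩
      rw [← hσ.2, mem_fib] at hxA
      rw [mem_fib] at hx
      rw [hx] at hxA
      exact absurd hxA (by decide)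
    · intro B hB
      rw [Finset.mem_coe] at hB ⊢
      rw [mem_powersetCard] at hB
      have hdisj : ∀ x ∈ B, x ∉ A := fun x hx => (mem_sdiff.1 (hB.1 hx)).2
      set τ : K → Fin 3 := fun x => if x ∈ A then 0 else if x ∈ B then 1 else 2 with hτ
      have h0 : fib τ 0 = A := by
        ext x
        rw [mem_fib, hτ]
        by_cases hxA : x ∈ A
        · simp [hxA]
        · by_cases hxB : x ∈ B <;> simp [hxA, hxB]
      have h1 : fib τ 1 = B := by
        ext x
        rw [mem_fib, hτ]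
        by_cases hxA : x ∈ A
        · have : x ∉ B := fun hxB => hdisj x hxB hxA
          simp [hxA, this]
        · by_cases hxB : x ∈ B <;> simp [hxA, hxB]
      have hsum := sum_card_fib τ
      rw [Fin.sum_univ_three, h0, h1, hA.2, hB.2] at hsum
      rw [Finset.mem_filter, hL, Finset.mem_filter]
      refine ⟨⟨mem_univ _, fun i => ?_⟩, h0⟩
      have h3 : ∀ j : Fin 3, j = 0 ∨ j = 1 ∨ j = 2 := by decide
      rcases h3 i with rfl | rfl | rfl
      · rw [h0, hA.2]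
      · rw [h1, hB.2]
      · show (fib τ 2).card = a 2
        omega
    · intro σ hσ
      rw [Finset.mem_coe, Finset.mem_filter] at hσ
      funext x
      have e0 : x ∈ A ↔ σ x = 0 := by rw [← hσ.2, mem_fib]
      have e1 : x ∈ fib σ 1 ↔ σ x = 1 := mem_fib
      simp only [e0, e1]
      exact fin3_ite (σ x)
    · intro B hB
      rw [Finset.mem_coe, mem_powersetCard] at hB
      have hdisj : ∀ x ∈ B, x ∉ A := fun x hx => (mem_sdiff.1 (hB.1 hx)).2
      ext x
      rw [mem_fib]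
      by_cases hxA : x ∈ A
      · have : x ∉ B := fun hxB => hdisj x hxB hxA
        simp [hxA, this]
      · by_cases hxB : x ∈ B <;> simp [hxA, hxB]
  rw [Finset.sum_congr rfl hterm, Finset.sum_const, card_powersetCard, Finset.card_univ,
    smul_eq_mul]

lemma cnt_mul_factorial {K : Type*} [Fintype K] [DecidableEq K] (a : Fin 3 → ℕ)
    (ha : a 0 + a 1 + a 2 = Fintype.card K) :
    cnt K a * ((a 0).factorial * (a 1).factorial * (a 2).factorial)
      = (Fintype.card K).factorial := by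
  rw [cnt_eq_choose a ha]
  have h1 := Nat.choose_mul_factorial_mul_factorial (n := Fintype.card K) (k := a 0) (by omega)
  have h2 := Nat.choose_mul_factorial_mul_factorial (n := Fintype.card K - a 0) (k := a 1)
    (by omega)
  have h3 : a 2 = Fintype.card K - a 0 - a 1 := by omega
  rw [h3]
  calc (Fintype.card K).choose (a 0) * (Fintype.card K - a 0).choose (a 1) *
        ((a 0).factorial * (a 1).factorial * (Fintype.card K - a 0 - a 1).factorial)
      = (Fintype.card K).choose (a 0) * (a 0).factorial *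
          ((Fintype.card K - a 0).choose (a 1) * (a 1).factorial *
            (Fintype.card K - a 0 - a 1).factorial) := by ring
    _ = (Fintype.card K).factorial := by rw [h2, h1]

end Count

section Weights

/-- the one-dimensional weights `p_i(n) = 1 / (n! (n - δ_i)!)` (zero if `n < δ_i`). -/
noncomputable def pw (δ : Fin 3 → ℤ) (i : Fin 3) (n : ℕ) : ℝ :=
  if δ i ≤ (n : ℤ) then
    1 / ((n.factorial : ℝ) * ((((n : ℤ) - δ i).toNat).factorial : ℝ)) else 0

lemma pw_nonneg (δ : Fin 3 → ℤ) (i : Fin 3) (n : ℕ) : 0 ≤ pw δ i n := by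
  unfold pw
  split_ifs
  · positivity
  · exact le_refl 0

lemma pw_pos_iff (δ : Fin 3 → ℤ) (i : Fin 3) (n : ℕ) : 0 < pw δ i n ↔ δ i ≤ (n : ℤ) := by
  unfold pw
  split_ifs with h
  · simp only [h, iff_true]
    have h1 : (0 : ℝ) < (n.factorial : ℝ) := Nat.cast_pos.2 (Nat.factorial_pos _)
    have h2 : (0 : ℝ) < ((((n : ℤ) - δ i).toNat).factorial : ℝ) :=
      Nat.cast_pos.2 (Nat.factorial_pos _)
    positivity
  · simp [h]

lemma pw_interval (δ : Fin 3 → ℤ) (i : Fin 3) (a b c : ℕ) (hab : a ≤ b) (_hbc : b ≤ c)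
    (ha : 0 < pw δ i a) (_hc : 0 < pw δ i c) : 0 < pw δ i b := by
  rw [pw_pos_iff] at ha ⊢
  have : (a : ℤ) ≤ b := by exact_mod_cast hab
  linarith

lemma pw_logconcave (δ : Fin 3 → ℤ) (i : Fin 3) (k : ℕ) :
    pw δ i k * pw δ i (k + 2) ≤ pw δ i (k + 1) ^ 2 := by
  by_cases h : δ i ≤ (k : ℤ)
  · obtain ⟨a, ha⟩ : ∃ a : ℕ, ((k : ℤ) - δ i) = a :=
      ⟨((k : ℤ) - δ i).toNat, (Int.toNat_of_nonneg (by linarith)).symm⟩
    have e0 : ((k : ℤ) - δ i).toNat = a := by omega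
    have e1 : (((k + 1 : ℕ) : ℤ) - δ i).toNat = a + 1 := by push_cast; omega
    have e2 : (((k + 2 : ℕ) : ℤ) - δ i).toNat = a + 2 := by push_cast; omega
    have h1 : δ i ≤ ((k + 1 : ℕ) : ℤ) := by push_cast; linarith
    have h2 : δ i ≤ ((k + 2 : ℕ) : ℤ) := by push_cast; linarith
    unfold pw
    rw [if_pos h, if_pos h1, if_pos h2, e0, e1, e2]
    have fk1 : ((k + 1).factorial : ℝ) = ((k : ℝ) + 1) * k.factorial := by
      rw [Nat.factorial_succ]; push_cast; ring
    have fk2 : ((k + 2).factorial : ℝ) = ((k : ℝ) + 2) * (((k : ℝ) + 1) * k.factorial) := by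
      rw [Nat.factorial_succ, Nat.factorial_succ]; push_cast; ring
    have fa1 : ((a + 1).factorial : ℝ) = ((a : ℝ) + 1) * a.factorial := by
      rw [Nat.factorial_succ]; push_cast; ring
    have fa2 : ((a + 2).factorial : ℝ) = ((a : ℝ) + 2) * (((a : ℝ) + 1) * a.factorial) := by
      rw [Nat.factorial_succ, Nat.factorial_succ]; push_cast; ring
    rw [fk1, fk2, fa1, fa2]
    have hx : (0 : ℝ) < (k.factorial : ℝ) := Nat.cast_pos.2 (Nat.factorial_pos _)
    have hy : (0 : ℝ) < (a.factorial : ℝ) := Nat.cast_pos.2 (Nat.factorial_pos _)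
    generalize (k.factorial : ℝ) = x at hx ⊢
    generalize (a.factorial : ℝ) = y at hy ⊢
    have hk : (0 : ℝ) ≤ (k : ℝ) := Nat.cast_nonneg k
    have ha' : (0 : ℝ) ≤ (a : ℝ) := Nat.cast_nonneg a
    generalize (k : ℝ) = kk at hk ⊢
    generalize (a : ℝ) = aa at ha' ⊢
    rw [div_mul_div_comm, one_mul, div_pow, one_pow]
    apply one_div_le_one_div_of_le (by positivity)
    have e : x * y * ((kk + 2) * ((kk + 1) * x) * ((aa + 2) * ((aa + 1) * y)))
        - ((kk + 1) * x * ((aa + 1) * y)) ^ 2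
        = x ^ 2 * y ^ 2 * (kk + 1) * (aa + 1) * (kk + aa + 3) := by ring
    have e' : 0 ≤ x ^ 2 * y ^ 2 * (kk + 1) * (aa + 1) * (kk + aa + 3) := by positivity
    linarith
  · unfold pw
    rw [if_neg h, zero_mul]
    positivity

end Weights

section Transfer
variable {δ : Fin 3 → ℤ}

lemma card_level_real (δ : Fin 3 → ℤ)
    (hδ : ∑ i, δ i = (Fintype.card K1 : ℤ) - Fintype.card K2) (l : Fin 3 → ℕ)
    (hl : ∑ i, l i = Fintype.card K1) :
    (((Om (K1 := K1) (K2 := K2) δ).filter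
        (fun s => (fun i => (fib s.1 i).card) = l)).card : ℝ) =
      ((Fintype.card K1).factorial * (Fintype.card K2).factorial : ℝ) * ∏ i, pw δ i (l i) := by
  have hfilter : (Om (K1 := K1) (K2 := K2) δ).filter
        (fun s => (fun i => (fib s.1 i).card) = l) =
      (univ.filter (fun σ1 : K1 → Fin 3 => ∀ i, (fib σ1 i).card = l i)) ×ˢ
      (univ.filter (fun σ2 : K2 → Fin 3 => ∀ i, ((fib σ2 i).card : ℤ) = l i - δ i)) := by
    ext ⟨σ1, σ2⟩
    simp only [Om, mem_filter, mem_univ, true_and, mem_product, funext_iff]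
    constructor
    · rintro ⟨h1, h2⟩
      refine ⟨h2, fun i => ?_⟩
      have := h1 i
      rw [h2 i] at this
      linarith
    · rintro ⟨h1, h2⟩
      exact ⟨fun i => by rw [h1 i, h2 i]; ring, h1⟩
  rw [hfilter, card_product]
  rw [Fin.sum_univ_three] at hl hδ
  by_cases hle : ∀ i, δ i ≤ (l i : ℤ)
  · have h2 : (univ.filter (fun σ2 : K2 → Fin 3 => ∀ i, ((fib σ2 i).card : ℤ) = l i - δ i))
        = univ.filter (fun σ2 : K2 → Fin 3 =>
            ∀ i, (fib σ2 i).card = (fun i => ((l i : ℤ) - δ i).toNat) i) := by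
      ext σ2
      simp only [mem_filter, mem_univ, true_and]
      constructor
      · intro h i; have := h i; have := hle i; omega
      · intro h i; have := h i; have := hle i; omega
    rw [h2]
    have ha_sum : (fun i => ((l i : ℤ) - δ i).toNat) 0 + (fun i => ((l i : ℤ) - δ i).toNat) 1
        + (fun i => ((l i : ℤ) - δ i).toNat) 2 = Fintype.card K2 := by
      have := hle 0; have := hle 1; have := hle 2
      simp only
      omega
    have e1 := cnt_mul_factorial (K := K1) l hl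
    have e2 := cnt_mul_factorial (K := K2) (fun i => ((l i : ℤ) - δ i).toNat) ha_sum
    unfold cnt at e1 e2
    have e1' : (((univ.filter (fun σ1 : K1 → Fin 3 => ∀ i, (fib σ1 i).card = l i)).card : ℕ) : ℝ)
        * (((l 0).factorial : ℝ) * (l 1).factorial * (l 2).factorial)
        = ((Fintype.card K1).factorial : ℝ) := by exact_mod_cast e1
    have e2' : (((univ.filter (fun σ2 : K2 → Fin 3 =>
          ∀ i, (fib σ2 i).card = ((l i : ℤ) - δ i).toNat)).card : ℕ) : ℝ)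
        * (((((l 0 : ℤ) - δ 0).toNat).factorial : ℝ) * (((l 1 : ℤ) - δ 1).toNat).factorial
          * (((l 2 : ℤ) - δ 2).toNat).factorial)
        = ((Fintype.card K2).factorial : ℝ) := by exact_mod_cast e2
    rw [Fin.prod_univ_three]
    unfold pw
    rw [if_pos (hle 0), if_pos (hle 1), if_pos (hle 2), ← e1', ← e2']
    have p0 : ((l 0).factorial : ℝ) ≠ 0 := Nat.cast_ne_zero.2 (Nat.factorial_ne_zero _)
    have p1 : ((l 1).factorial : ℝ) ≠ 0 := Nat.cast_ne_zero.2 (Nat.factorial_ne_zero _)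
    have p2 : ((l 2).factorial : ℝ) ≠ 0 := Nat.cast_ne_zero.2 (Nat.factorial_ne_zero _)
    have q0 : ((((l 0 : ℤ) - δ 0).toNat).factorial : ℝ) ≠ 0 :=
      Nat.cast_ne_zero.2 (Nat.factorial_ne_zero _)
    have q1 : ((((l 1 : ℤ) - δ 1).toNat).factorial : ℝ) ≠ 0 :=
      Nat.cast_ne_zero.2 (Nat.factorial_ne_zero _)
    have q2 : ((((l 2 : ℤ) - δ 2).toNat).factorial : ℝ) ≠ 0 :=
      Nat.cast_ne_zero.2 (Nat.factorial_ne_zero _)
    push_cast
    field_simp
  · rw [not_forall] at hle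
    obtain ⟨i, hi⟩ := hle
    rw [not_le] at hi
    have h2 : (univ.filter (fun σ2 : K2 → Fin 3 => ∀ i, ((fib σ2 i).card : ℤ) = l i - δ i))
        = ∅ := by
      rw [Finset.filter_eq_empty_iff]
      intro σ2 _ h
      have := h i
      have : (0 : ℤ) ≤ ((fib σ2 i).card : ℤ) := Int.natCast_nonneg _
      omega
    have hz : pw δ i (l i) = 0 := by
      unfold pw; rw [if_neg (not_le.2 hi)]
    rw [h2, Finset.prod_eq_zero (mem_univ i) hz]
    simp

lemma sum_Om_level (δ : Fin 3 → ℤ)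
    (hδ : ∑ i, δ i = (Fintype.card K1 : ℤ) - Fintype.card K2) (φ : (Fin 3 → ℕ) → ℝ) :
    ∑ s ∈ Om (K1 := K1) (K2 := K2) δ, φ (fun i => (fib s.1 i).card) =
      ((Fintype.card K1).factorial * (Fintype.card K2).factorial : ℝ) *
        ∑ l ∈ Finset.Nat.antidiagonalTuple 3 (Fintype.card K1), (∏ i, pw δ i (l i)) * φ l := by
  have hmaps : ∀ s ∈ Om (K1 := K1) (K2 := K2) δ,
      (fun i => (fib s.1 i).card) ∈ Finset.Nat.antidiagonalTuple 3 (Fintype.card K1) := by
    intro s _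
    rw [Finset.Nat.mem_antidiagonalTuple]
    exact sum_card_fib s.1
  rw [← Finset.sum_fiberwise_of_maps_to' hmaps φ, Finset.mul_sum]
  refine Finset.sum_congr rfl (fun l hl => ?_)
  rw [Finset.sum_const, nsmul_eq_mul,
    card_level_real δ hδ l (Finset.Nat.mem_antidiagonalTuple.1 hl)]
  ring

end Transfer

/-- The one-dimensional lemma (PROOF.md section 4, work package D2), in the shape announced by
helper5: three independent log-concave integer laws conditioned on their sum. -/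
def OneDimStatement : Prop :=
  ∀ (p : Fin 3 → ℕ → ℝ), (∀ i k, 0 ≤ p i k) → (∀ i k, p i k * p i (k + 2) ≤ p i (k + 1) ^ 2) →
    (∀ i a b c, a ≤ b → b ≤ c → 0 < p i a → 0 < p i c → 0 < p i b) →
    ∀ (m : ℕ) (g : Fin 3 → ℕ → ℝ),
      (∑ l ∈ Finset.Nat.antidiagonalTuple 3 m, ∏ i, p i (l i)) *
          (∑ l ∈ Finset.Nat.antidiagonalTuple 3 m, (∏ i, p i (l i)) * (∑ i, g i (l i)) ^ 2) -
        (∑ l ∈ Finset.Nat.antidiagonalTuple 3 m, (∏ i, p i (l i)) * ∑ i, g i (l i)) ^ 2 ≤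
      2 * ∑ i, ((∑ l ∈ Finset.Nat.antidiagonalTuple 3 m, ∏ j, p j (l j)) *
          (∑ l ∈ Finset.Nat.antidiagonalTuple 3 m, (∏ j, p j (l j)) * g i (l i) ^ 2) -
        (∑ l ∈ Finset.Nat.antidiagonalTuple 3 m, (∏ j, p j (l j)) * g i (l i)) ^ 2)

/-- (L3) for the colouring model, on the class `H`. -/
theorem L3_core (h1D : OneDimStatement) (δ : Fin 3 → ℤ)
    (g : Fin 3 → (K1 → Fin 3) × (K2 → Fin 3) → ℝ) (hg : InH δ g) : 0 ≤ Qf δ g := by
  by_contra hneg
  rw [not_le] at hneg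
  obtain ⟨v, hv, hn, hq, hmin⟩ := exists_minimiser g hg hneg
  have hs1 : ∀ x x' : K1, ∀ i, ∀ s ∈ Om δ,
      v i (act (Equiv.swap x x') (1 : Equiv.Perm K2) s) = v i s :=
    fun x x' => minimiser_invariant v hv hn hq hmin (Equiv.swap x x') 1
      (Equiv.swap_mul_self x x') (one_mul 1) (hfix_swap1 x x')
  have hs2 : ∀ y y' : K2, ∀ i, ∀ s ∈ Om δ,
      v i (act (1 : Equiv.Perm K1) (Equiv.swap y y') s) = v i s :=
    fun y y' => minimiser_invariant v hv hn hq hmin 1 (Equiv.swap y y')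
      (one_mul 1) (Equiv.swap_mul_self y y') (hfix_swap2 y y')
  obtain ⟨u, hu⟩ := level_function v hv (invariant_perm v hs1 hs2)
  have hne : (Om (K1 := K1) (K2 := K2) δ).Nonempty := by
    by_contra h
    rw [Finset.not_nonempty_iff_eq_empty] at h
    simp [nrm, h] at hn
  obtain ⟨s0, hs0⟩ := hne
  have hδ : ∑ i, δ i = (Fintype.card K1 : ℤ) - Fintype.card K2 := by
    have h0 := mem_Om.1 hs0
    rw [← sum_card_fib s0.1, ← sum_card_fib s0.2]
    push_cast
    rw [← Finset.sum_sub_distrib]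
    exact Finset.sum_congr rfl (fun i _ => (h0 i).symm)
  have T := sum_Om_level (K1 := K1) (K2 := K2) δ hδ
  have hcpos : (0 : ℝ) < ((Fintype.card K1).factorial * (Fintype.card K2).factorial : ℝ) := by
    have h1 : (0 : ℝ) < ((Fintype.card K1).factorial : ℝ) := Nat.cast_pos.2 (Nat.factorial_pos _)
    have h2 : (0 : ℝ) < ((Fintype.card K2).factorial : ℝ) := Nat.cast_pos.2 (Nat.factorial_pos _)
    positivity
  generalize ((Fintype.card K1).factorial * (Fintype.card K2).factorial : ℝ) = c at T hcpos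
  have key := h1D (pw δ) (pw_nonneg δ) (pw_logconcave δ) (pw_interval δ) (Fintype.card K1) u
  generalize Finset.Nat.antidiagonalTuple 3 (Fintype.card K1) = S at T key
  have eD : ∀ i, ∑ l ∈ S, (∏ j, pw δ j (l j)) * u i (l i) = 0 := by
    intro i
    have h := T (fun l => u i (l i))
    rw [Finset.sum_congr rfl (fun s hs => (hu i s hs).symm), hv.2.2 i] at h
    exact (mul_eq_zero.1 h.symm).resolve_left hcpos.ne'
  have eA : ∑ s ∈ Om δ, (v 0 s + v 1 s + v 2 s) ^ 2
      = c * ∑ l ∈ S, (∏ j, pw δ j (l j)) * (∑ i, u i (l i)) ^ 2 := by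
    rw [← T (fun l => (∑ i, u i (l i)) ^ 2)]
    refine Finset.sum_congr rfl (fun s hs => ?_)
    rw [Fin.sum_univ_three, hu 0 s hs, hu 1 s hs, hu 2 s hs]
  have eC : ∀ i, ∑ s ∈ Om δ, v i s ^ 2 = c * ∑ l ∈ S, (∏ j, pw δ j (l j)) * u i (l i) ^ 2 := by
    intro i
    rw [← T (fun l => u i (l i) ^ 2)]
    exact Finset.sum_congr rfl (fun s hs => by rw [hu i s hs])
  have eZ : ((Om (K1 := K1) (K2 := K2) δ).card : ℝ) = c * ∑ l ∈ S, ∏ j, pw δ j (l j) := by
    have h := T (fun _ => 1)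
    simpa using h
  have hZ : 0 < ∑ l ∈ S, ∏ j, pw δ j (l j) := by
    have h : (0 : ℝ) < (Om (K1 := K1) (K2 := K2) δ).card := by
      exact_mod_cast Finset.card_pos.2 ⟨s0, hs0⟩
    rw [eZ] at h
    exact (mul_pos_iff_of_pos_left hcpos).1 h
  have eB : ∑ l ∈ S, (∏ j, pw δ j (l j)) * ∑ i, u i (l i) = 0 := by
    simp only [Finset.mul_sum]
    rw [Finset.sum_comm]
    exact Finset.sum_eq_zero (fun i _ => eD i)
  rw [eB] at key
  simp only [eD, Fin.sum_univ_three] at key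
  have hQ : Qf δ v = 2 * (∑ s ∈ Om δ, v 0 s ^ 2 + ∑ s ∈ Om δ, v 1 s ^ 2 + ∑ s ∈ Om δ, v 2 s ^ 2)
      - ∑ s ∈ Om δ, (v 0 s + v 1 s + v 2 s) ^ 2 := by
    unfold Qf
    rw [Finset.sum_sub_distrib, ← Finset.mul_sum, Finset.sum_add_distrib, Finset.sum_add_distrib]
  rw [hQ, eA, eC 0, eC 1, eC 2] at hq
  simp only [Fin.sum_univ_three] at hq
  generalize (∑ l ∈ S, ∏ j, pw δ j (l j)) = Z at key hZ
  generalize (∑ l ∈ S, (∏ j, pw δ j (l j)) * u 0 (l 0) ^ 2) = C0 at key hq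
  generalize (∑ l ∈ S, (∏ j, pw δ j (l j)) * u 1 (l 1) ^ 2) = C1 at key hq
  generalize (∑ l ∈ S, (∏ j, pw δ j (l j)) * u 2 (l 2) ^ 2) = C2 at key hq
  generalize (∑ l ∈ S, (∏ j, pw δ j (l j)) * (u 0 (l 0) + u 1 (l 1) + u 2 (l 2)) ^ 2) = A
    at key hq
  have hX : 0 ≤ Z * (2 * (C0 + C1 + C2) - A) := by
    nlinarith [key]
  have hX' := (mul_nonneg_iff_of_pos_left hZ).1 hX
  nlinarith [mul_nonneg hcpos.le hX']

/-- **(L3) for the colouring model** (PROOF.md, section 3): if `g i` depends only on the view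
of party `i` and has mean zero over the state space, then
`Σ (g₀ + g₁ + g₂)² ≤ 2 Σ (g₀² + g₁² + g₂²)`. -/
theorem L3_colouring_of_oneDim (h1D : OneDimStatement) (δ : Fin 3 → ℤ)
    (g : Fin 3 → (K1 → Fin 3) × (K2 → Fin 3) → ℝ)
    (hview : ∀ i, ∀ s ∈ Om δ, ∀ s' ∈ Om δ, fib s.1 i = fib s'.1 i → fib s.2 i = fib s'.2 i →
      g i s = g i s')
    (hmean : ∀ i, ∑ s ∈ Om δ, g i s = 0) :
    ∑ s ∈ Om δ, (g 0 s + g 1 s + g 2 s) ^ 2
      ≤ 2 * ∑ s ∈ Om δ, (g 0 s ^ 2 + g 1 s ^ 2 + g 2 s ^ 2) := by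
  classical
  set g' : Fin 3 → (K1 → Fin 3) × (K2 → Fin 3) → ℝ :=
    fun i s => if s ∈ Om δ then g i s else 0 with hg'
  have hH : InH δ g' := by
    refine ⟨fun i s hs => by simp [hg', hs], fun i s hs s' hs' h1 h2 => ?_, fun i => ?_⟩
    · simp only [hg', if_pos hs, if_pos hs']
      exact hview i s hs s' hs' h1 h2
    · rw [← hmean i]
      exact Finset.sum_congr rfl (fun s hs => by simp [hg', hs])
  have h := L3_core h1D δ g' hH
  have e : Qf δ g' = ∑ s ∈ Om δ,
      (2 * (g 0 s ^ 2 + g 1 s ^ 2 + g 2 s ^ 2) - (g 0 s + g 1 s + g 2 s) ^ 2) := by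
    unfold Qf
    exact Finset.sum_congr rfl (fun s hs => by simp [hg', hs])
  rw [e, Finset.sum_sub_distrib, ← Finset.mul_sum] at h
  linarith

end Crest.Agent.Helper77.S0453
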