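/-
S0453 (row 299), work package D1 (helper77): (L3) for the colouring model in the canonical shape
(helper12 #1861: states / view / `g : Fin 3 → Finset K1 × Finset K2 → ℝ`), and the bridges to the
table files of helper56 and helper97.  Only input: the one-dimensional lemma `OneDimStatement`.
-/
import Crest.Agent.Helper77.S0453.Colouring
import Crest.Agent.Helper56.SW.Tables
import Crest.Agent.Helper97.SW.Tables

set_option autoImplicit false
open Finset

namespace Crest.Agent.Helper77.S0453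

universe u

/-- **(L3) for the colouring model, canonical shape**: `g i` is a function of the view
`(fib s.1 i, fib s.2 i)` of party `i`. -/
theorem L3_view_of_oneDim (h1D : OneDimStatement) {K1 K2 : Type*} [Fintype K1] [DecidableEq K1]
    [Fintype K2] [DecidableEq K2] (dl : Fin 3 → ℤ) (g : Fin 3 → Finset K1 × Finset K2 → ℝ)
    (h0 : ∀ i, ∑ s ∈ Om (K1 := K1) (K2 := K2) dl, g i (fib s.1 i, fib s.2 i) = 0) :
    ∑ s ∈ Om (K1 := K1) (K2 := K2) dl, (∑ i, g i (fib s.1 i, fib s.2 i)) ^ 2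
      ≤ 2 * ∑ s ∈ Om (K1 := K1) (K2 := K2) dl, ∑ i, (g i (fib s.1 i, fib s.2 i)) ^ 2 := by
  have h := L3_colouring_of_oneDim h1D dl (fun i s => g i (fib s.1 i, fib s.2 i))
    (fun i s _ s' _ h1 h2 => by simp only [h1, h2]) h0
  simpa only [Fin.sum_univ_three] using h

/-- the hypothesis of helper56's `L3_tables`. -/
theorem l3Colouring_helper56 (h1D : OneDimStatement) : Crest.Agent.Helper56.SW.L3Colouring.{u} :=
  fun _ _ _ _ _ _ dl g h0 => L3_view_of_oneDim h1D dl g h0

/-- the hypothesis of helper97's `L3_tables_of_colouring`. -/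
theorem l3Colouring_helper97 (h1D : OneDimStatement) (K1 K2 : Type*) [Fintype K1] [DecidableEq K1]
    [Fintype K2] [DecidableEq K2] : Crest.Agent.Helper97.SW.L3Colouring K1 K2 :=
  fun dl g h0 => L3_view_of_oneDim h1D dl g h0

/-- **(L3) for three-row 0/1 tables** (helper68's `Tab r c`, helper56's file), from the
one-dimensional lemma. -/
theorem L3_tables_of_oneDim (h1D : OneDimStatement) {C : Type u} [Fintype C] [DecidableEq C]
    (r : Fin 3 → ℕ) (c : C → ℕ) (g : Fin 3 → Finset C → ℝ)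
    (h0 : ∀ i, ∑ x ∈ Crest.Agent.Helper56.SW.Tab r c, g i (x i) = 0) :
    ∑ x ∈ Crest.Agent.Helper56.SW.Tab r c, (∑ i, g i (x i)) ^ 2
      ≤ 2 * ∑ x ∈ Crest.Agent.Helper56.SW.Tab r c, ∑ i, (g i (x i)) ^ 2 :=
  Crest.Agent.Helper56.SW.L3_tables (l3Colouring_helper56 h1D) r c g h0

/-- the same for helper97's copy of `Tab`. -/
theorem L3_tables97_of_oneDim (h1D : OneDimStatement) {C : Type*} [Fintype C] [DecidableEq C]
    (r : Fin 3 → ℕ) (c : C → ℕ) (g : Fin 3 → Finset C → ℝ)
    (h0 : ∀ i, ∑ x ∈ Crest.Agent.Helper97.SW.Tab r c, g i (x i) = 0) :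
    ∑ x ∈ Crest.Agent.Helper97.SW.Tab r c, (∑ i, g i (x i)) ^ 2
      ≤ 2 * ∑ x ∈ Crest.Agent.Helper97.SW.Tab r c, ∑ i, (g i (x i)) ^ 2 :=
  Crest.Agent.Helper97.SW.L3_tables_of_colouring r c (l3Colouring_helper97 h1D _ _) g h0

end Crest.Agent.Helper77.S0453
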