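/-
S0453 (row 299): the three-party inequality (L3), hypothesis-free — colouring model (work package
D1, helper77) with the one-dimensional lemma of helper5 (work package D2) plugged in; and (L3)
for three-row 0/1 tables (work package D1t) through the table files of helper56 / helper97.
-/
import Crest.Agent.Helper77.S0453.ColouringCanon
import Crest.Agent.Helper5.S0453.OneDim

set_option autoImplicit false
open Finset

namespace Crest.Agent.Helper77.S0453

universe u

/-- helper5's `oneDim` is the statement `OneDimStatement`. -/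
theorem oneDimStatement : OneDimStatement :=
  fun p hp hlc hint m g => Crest.Agent.Helper5.S0453.oneDim p hp hlc hint m g

/-- **(L3) for the colouring model**, state form: `g i` depends only on the view of party `i`
and has mean zero. -/
theorem L3_colouring {K1 K2 : Type*} [Fintype K1] [DecidableEq K1] [Fintype K2] [DecidableEq K2]
    (δ : Fin 3 → ℤ) (g : Fin 3 → (K1 → Fin 3) × (K2 → Fin 3) → ℝ)
    (hview : ∀ i, ∀ s ∈ Om δ, ∀ s' ∈ Om δ, fib s.1 i = fib s'.1 i → fib s.2 i = fib s'.2 i →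
      g i s = g i s')
    (hmean : ∀ i, ∑ s ∈ Om δ, g i s = 0) :
    ∑ s ∈ Om δ, (g 0 s + g 1 s + g 2 s) ^ 2
      ≤ 2 * ∑ s ∈ Om δ, (g 0 s ^ 2 + g 1 s ^ 2 + g 2 s ^ 2) :=
  L3_colouring_of_oneDim oneDimStatement δ g hview hmean

/-- **(L3) for the colouring model**, canonical (view) form. -/
theorem L3_view {K1 K2 : Type*} [Fintype K1] [DecidableEq K1] [Fintype K2] [DecidableEq K2]
    (dl : Fin 3 → ℤ) (g : Fin 3 → Finset K1 × Finset K2 → ℝ)
    (h0 : ∀ i, ∑ s ∈ Om (K1 := K1) (K2 := K2) dl, g i (fib s.1 i, fib s.2 i) = 0) :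
    ∑ s ∈ Om (K1 := K1) (K2 := K2) dl, (∑ i, g i (fib s.1 i, fib s.2 i)) ^ 2
      ≤ 2 * ∑ s ∈ Om (K1 := K1) (K2 := K2) dl, ∑ i, (g i (fib s.1 i, fib s.2 i)) ^ 2 :=
  L3_view_of_oneDim oneDimStatement dl g h0

/-- helper56's `L3Colouring`, proved. -/
theorem l3Colouring56 : Crest.Agent.Helper56.SW.L3Colouring.{u} :=
  l3Colouring_helper56 oneDimStatement

/-- helper97's `L3Colouring K1 K2`, proved. -/
theorem l3Colouring97 (K1 K2 : Type*) [Fintype K1] [DecidableEq K1] [Fintype K2]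
    [DecidableEq K2] : Crest.Agent.Helper97.SW.L3Colouring K1 K2 :=
  l3Colouring_helper97 oneDimStatement K1 K2

/-- **(L3) for three-row 0/1 tables** with row sums `r` and column sums `c` (helper68's
statement, on helper56's `Tab`): no hypothesis left. -/
theorem L3_tables {C : Type u} [Fintype C] [DecidableEq C]
    (r : Fin 3 → ℕ) (c : C → ℕ) (g : Fin 3 → Finset C → ℝ)
    (h0 : ∀ i, ∑ x ∈ Crest.Agent.Helper56.SW.Tab r c, g i (x i) = 0) :
    ∑ x ∈ Crest.Agent.Helper56.SW.Tab r c, (∑ i, g i (x i)) ^ 2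
      ≤ 2 * ∑ x ∈ Crest.Agent.Helper56.SW.Tab r c, ∑ i, (g i (x i)) ^ 2 :=
  L3_tables_of_oneDim oneDimStatement r c g h0

/-- the same on helper97's copy of `Tab`. -/
theorem L3_tables97 {C : Type*} [Fintype C] [DecidableEq C]
    (r : Fin 3 → ℕ) (c : C → ℕ) (g : Fin 3 → Finset C → ℝ)
    (h0 : ∀ i, ∑ x ∈ Crest.Agent.Helper97.SW.Tab r c, g i (x i) = 0) :
    ∑ x ∈ Crest.Agent.Helper97.SW.Tab r c, (∑ i, g i (x i)) ^ 2
      ≤ 2 * ∑ x ∈ Crest.Agent.Helper97.SW.Tab r c, ∑ i, (g i (x i)) ^ 2 :=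
  L3_tables97_of_oneDim oneDimStatement r c g h0

end Crest.Agent.Helper77.S0453
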