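/-
S0453 (row 299): the three-row table inequality in helper78's interface shape `L3 C`
(`Crest/Agent/Helper78/S0453/Table3.lean`), hypothesis-free.
-/
import Crest.Agent.Helper77.S0453.L3Final
import Crest.Agent.Helper78.S0453.Table3

set_option autoImplicit false
open Finset

namespace Crest.Agent.Helper77.S0453

/-- helper78's `Tab c r` is helper56's `Tab r c`. -/
theorem tab78_eq_tab56 {C : Type*} [Fintype C] [DecidableEq C] (c : C → ℕ) (r : Fin 3 → ℕ) :
    Crest.Agent.Helper78.S0453.Tab c r = Crest.Agent.Helper56.SW.Tab r c := by
  ext x
  simp only [Crest.Agent.Helper78.S0453.Tab, Crest.Agent.Helper56.SW.Tab, mem_filter, mem_univ,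
    true_and]
  exact And.comm

/-- **The three-row table inequality `L3 C`** of helper78's interface, for every finite column
type `C`. -/
theorem L3_helper78 (C : Type*) [Fintype C] [DecidableEq C] : Crest.Agent.Helper78.S0453.L3 C := by
  intro c r g h0
  rw [tab78_eq_tab56] at h0 ⊢
  have h := L3_tables r c g h0
  rw [Finset.sum_comm] at h
  exact h

end Crest.Agent.Helper77.S0453
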