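import Crest.Agent.Helper77.S0453.TwoPairSpecProof
import Crest.Agent.Helper67.SW.TwoPairGraph

/-!
# S0453: (TPL-graph), hypothesis-free

helper67's graph side `tplGraph_of_spec` applied to `twoPairSpec`.
-/

set_option autoImplicit false

namespace Crest.Agent.Helper77.S0453

open Crest.SwitchChain

/-- **(TPL-graph)** in helper10's interface of record, without hypotheses. -/
theorem tplGraph {n : ℕ} (d : Fin n → ℕ) (f : Finset (Edge n) → ℝ) :
    Crest.Agent.Helper10.S0453.TPLGraph d f :=
  Crest.Agent.Helper67.SW.tplGraph_of_spec TP.twoPairSpec d f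

end Crest.Agent.Helper77.S0453
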