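import Crest.Agent.Helper67.SW.TwoPairSpec
import Crest.Agent.Helper89.SW.TwoPair
import Crest.Agent.Helper38.SW.ProdStmt

/-!
# S0453: proof of `Crest.Agent.Helper67.SW.TwoPairSpec` (transport track of helper77)

`TwoPairSpec` (helper67's statement of the two-pair inequality on one coordinatised fibre) is
derived from

* helper89's explicit diamond inequality `Crest.Agent.Helper89.SW.cross_ineq` (case `m = 2`),
* helper38's rectangle positivity `Crest.Agent.Helper38.SW.rect_pos` (case `m ≠ 2`).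

The transport: `Fv M0 a c` is the value of `f` at the (unique) state of `Φ` with coordinates
`(M0, a, c)`; every sum over `Φ` of a function of the coordinates is a sum over the six block
cells (`sum_all`), and the class sums / class cardinalities are read off from that.
-/

set_option autoImplicit false
set_option linter.unusedSectionVars false
set_option linter.unusedVariables false

namespace Crest.Agent.Helper77.S0453.TP

open Finset

/-- blocks `(x_ac, x_ae, x_bc, x_be)`. -/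
abbrev Blk := Bool × Bool × Bool × Bool

/-- number of ones of a block -/
def tot (M : Blk) : ℕ :=
  (if M.1 then 1 else 0) + (if M.2.1 then 1 else 0) + (if M.2.2.1 then 1 else 0)
    + (if M.2.2.2 then 1 else 0)

/-- first row sum -/
def rho (M : Blk) : ℕ := (if M.1 then 1 else 0) + (if M.2.1 then 1 else 0)

/-- first column sum -/
def kap (M : Blk) : ℕ := (if M.1 then 1 else 0) + (if M.2.2.1 then 1 else 0)

lemma blk_inj : ∀ M1 M2 : Blk, tot M1 = tot M2 → tot M1 ≠ 2 → rho M1 = rho M2 →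
    kap M1 = kap M2 → M1 = M2 := by
  decide

lemma blk_rect : ∀ M1 M2 : Blk, tot M1 = tot M2 → tot M1 ≠ 2 →
    ∃ M0 : Blk, tot M0 = tot M1 ∧ rho M0 = rho M1 ∧ kap M0 = kap M2 := by
  decide

lemma sum_ite_const_cond {ι : Type*} (s : Finset ι) (p : Prop) [Decidable p] (g : ι → ℝ) :
    ∑ c ∈ s, (if p then g c else 0) = if p then ∑ c ∈ s, g c else 0 := by
  split_ifs <;> simp

section Fibre

variable {X α γ : Type} [DecidableEq α] [DecidableEq γ]
  (Φ : Finset X) (M : X → Blk) (A : X → α) (C : X → γ) (m : ℕ)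
  (As : ℕ → Finset α) (Cs : ℕ → Finset γ) (f : X → ℝ)

/-- the value of `f` at the state of `Φ` with coordinates `(M0, a, c)` (`0` if there is none). -/
noncomputable def Fv (M0 : Blk) (a : α) (c : γ) : ℝ :=
  ∑ y ∈ Φ.filter (fun y => M y = M0 ∧ A y = a ∧ C y = c), f y

variable (hinj : ∀ x ∈ Φ, ∀ y ∈ Φ, M x = M y → A x = A y → C x = C y → x = y)
  (himg : ∀ M0 a c, (∃ x ∈ Φ, M x = M0 ∧ A x = a ∧ C x = c) ↔
      (tot M0 = m ∧ a ∈ As (rho M0) ∧ c ∈ Cs (kap M0)))

include himg in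
lemma coords_mem {x : X} (hx : x ∈ Φ) :
    tot (M x) = m ∧ A x ∈ As (rho (M x)) ∧ C x ∈ Cs (kap (M x)) :=
  (himg (M x) (A x) (C x)).1 ⟨x, hx, rfl, rfl, rfl⟩

include hinj in
lemma Fv_self {x : X} (hx : x ∈ Φ) : Fv Φ M A C f (M x) (A x) (C x) = f x := by
  unfold Fv
  rw [Finset.sum_eq_single_of_mem x (by simp [hx])]
  intro y hy hne
  rw [Finset.mem_filter] at hy
  exact absurd (hinj y hy.1 x hx hy.2.1 hy.2.2.1 hy.2.2.2) hne

include hinj himg in
/-- a sum over one block cell. -/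
lemma sum_cell (M0 : Blk) (G : α → γ → ℝ) :
    ∑ x ∈ Φ.filter (fun x => M x = M0), G (A x) (C x)
      = if tot M0 = m then ∑ a ∈ As (rho M0), ∑ c ∈ Cs (kap M0), G a c else 0 := by
  split_ifs with h
  · rw [← Finset.sum_product']
    refine Finset.sum_bij (fun x _ => (A x, C x)) ?_ ?_ ?_ ?_
    · intro x hx
      rw [Finset.mem_filter] at hx
      have h3 := coords_mem Φ M A C m As Cs himg hx.1
      rw [hx.2] at h3
      exact Finset.mem_product.2 ⟨h3.2.1, h3.2.2⟩
    · intro x hx y hy hxy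
      rw [Finset.mem_filter] at hx hy
      have h1 : A x = A y := congrArg Prod.fst hxy
      have h2 : C x = C y := congrArg Prod.snd hxy
      exact hinj x hx.1 y hy.1 (hx.2.trans hy.2.symm) h1 h2
    · intro p hp
      rw [Finset.mem_product] at hp
      obtain ⟨x, hx, h1, h2, h3⟩ := (himg M0 p.1 p.2).2 ⟨h, hp.1, hp.2⟩
      exact ⟨x, Finset.mem_filter.2 ⟨hx, h1⟩, by rw [h2, h3]⟩
    · intro x hx; rfl
  · rw [Finset.filter_eq_empty_iff.2, Finset.sum_empty]
    intro x hx hM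
    exact h (hM ▸ (coords_mem Φ M A C m As Cs himg hx).1)

end Fibre

section Diamond

variable {X α γ : Type} [DecidableEq α] [DecidableEq γ]
  (Φ : Finset X) (M : X → Blk) (A : X → α) (C : X → γ)
  (As : ℕ → Finset α) (Cs : ℕ → Finset γ) (f : X → ℝ)
  (hinj : ∀ x ∈ Φ, ∀ y ∈ Φ, M x = M y → A x = A y → C x = C y → x = y)
  (himg : ∀ M0 a c, (∃ x ∈ Φ, M x = M0 ∧ A x = a ∧ C x = c) ↔
      (tot M0 = 2 ∧ a ∈ As (rho M0) ∧ c ∈ Cs (kap M0)))

include hinj himg in
/-- **Cell decomposition** of a sum over a diamond fibre (`m = 2`). -/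
lemma sum_all (G : Blk → α → γ → ℝ) :
    ∑ x ∈ Φ, G (M x) (A x) (C x)
      = ∑ a ∈ As 1, ∑ c ∈ Cs 1, G (true, false, false, true) a c
        + ∑ a ∈ As 1, ∑ c ∈ Cs 1, G (false, true, true, false) a c
        + ∑ a ∈ As 2, ∑ c ∈ Cs 1, G (true, true, false, false) a c
        + ∑ a ∈ As 0, ∑ c ∈ Cs 1, G (false, false, true, true) a c
        + ∑ a ∈ As 1, ∑ c ∈ Cs 2, G (true, false, true, false) a c
        + ∑ a ∈ As 1, ∑ c ∈ Cs 0, G (false, true, false, true) a c := by
  rw [← Finset.sum_fiberwise Φ M (fun x => G (M x) (A x) (C x))]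
  have h1 : ∀ M0 : Blk, ∑ x ∈ Φ.filter (fun x => M x = M0), G (M x) (A x) (C x)
      = if tot M0 = 2 then ∑ a ∈ As (rho M0), ∑ c ∈ Cs (kap M0), G M0 a c else 0 := by
    intro M0
    rw [← sum_cell Φ M A C 2 As Cs hinj himg M0 (G M0)]
    exact Finset.sum_congr rfl (fun x hx => by rw [(Finset.mem_filter.1 hx).2])
  rw [Finset.sum_congr rfl (fun M0 _ => h1 M0)]
  simp only [Fintype.sum_prod_type, Fintype.sum_bool, tot, rho, kap]
  simp
  ring


variable (hAs : ∀ r r', r ≠ r' → Disjoint (As r) (As r'))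
  (hCs : ∀ k k', k ≠ k' → Disjoint (Cs k) (Cs k'))

/-! ### class sums of a function of the coordinates -/

include hinj himg hCs in
lemma Csum_one (G : Blk → α → γ → ℝ) {c0 : γ} (hc0 : c0 ∈ Cs 1) :
    ∑ y ∈ Φ.filter (fun y => C y = c0), G (M y) (A y) (C y)
      = ∑ a ∈ As 1, (G (true, false, false, true) a c0 + G (false, true, true, false) a c0)
        + ∑ a ∈ As 2, G (true, true, false, false) a c0
        + ∑ a ∈ As 0, G (false, false, true, true) a c0 := by
  have h0 : c0 ∉ Cs 0 := fun h => Finset.disjoint_left.1 (hCs 1 0 (by decide)) hc0 h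
  have h2 : c0 ∉ Cs 2 := fun h => Finset.disjoint_left.1 (hCs 1 2 (by decide)) hc0 h
  rw [Finset.sum_filter]
  refine (sum_all Φ M A C As Cs hinj himg (fun M0 a c => if c = c0 then G M0 a c else 0)).trans ?_
  simp [Finset.sum_ite_eq', hc0, h0, h2, Finset.sum_add_distrib]

include hinj himg hCs in
lemma Csum_two (G : Blk → α → γ → ℝ) {c0 : γ} (hc0 : c0 ∈ Cs 2) :
    ∑ y ∈ Φ.filter (fun y => C y = c0), G (M y) (A y) (C y)
      = ∑ a ∈ As 1, G (true, false, true, false) a c0 := by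
  have h0 : c0 ∉ Cs 0 := fun h => Finset.disjoint_left.1 (hCs 2 0 (by decide)) hc0 h
  have h1 : c0 ∉ Cs 1 := fun h => Finset.disjoint_left.1 (hCs 2 1 (by decide)) hc0 h
  rw [Finset.sum_filter]
  refine (sum_all Φ M A C As Cs hinj himg (fun M0 a c => if c = c0 then G M0 a c else 0)).trans ?_
  simp [Finset.sum_ite_eq', hc0, h0, h1]

include hinj himg hCs in
lemma Csum_zero (G : Blk → α → γ → ℝ) {c0 : γ} (hc0 : c0 ∈ Cs 0) :
    ∑ y ∈ Φ.filter (fun y => C y = c0), G (M y) (A y) (C y)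
      = ∑ a ∈ As 1, G (false, true, false, true) a c0 := by
  have h2 : c0 ∉ Cs 2 := fun h => Finset.disjoint_left.1 (hCs 0 2 (by decide)) hc0 h
  have h1 : c0 ∉ Cs 1 := fun h => Finset.disjoint_left.1 (hCs 0 1 (by decide)) hc0 h
  rw [Finset.sum_filter]
  refine (sum_all Φ M A C As Cs hinj himg (fun M0 a c => if c = c0 then G M0 a c else 0)).trans ?_
  simp [Finset.sum_ite_eq', hc0, h2, h1]

include hinj himg hCs in
lemma Csumz_one (G : Blk → α → γ → ℝ) {c0 : γ} (hc0 : c0 ∈ Cs 1) :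
    ∑ y ∈ Φ.filter (fun y => C y = c0 ∧ Crest.Agent.Helper67.SW.IsCtr (M y)), G (M y) (A y) (C y)
      = ∑ a ∈ As 1, (G (true, false, false, true) a c0 + G (false, true, true, false) a c0) := by
  have h0 : c0 ∉ Cs 0 := fun h => Finset.disjoint_left.1 (hCs 1 0 (by decide)) hc0 h
  have h2 : c0 ∉ Cs 2 := fun h => Finset.disjoint_left.1 (hCs 1 2 (by decide)) hc0 h
  rw [Finset.sum_filter]
  refine (sum_all Φ M A C As Cs hinj himg
    (fun M0 a c => if c = c0 ∧ Crest.Agent.Helper67.SW.IsCtr M0 then G M0 a c else 0)).trans ?_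
  simp [Crest.Agent.Helper67.SW.IsCtr, Finset.sum_ite_eq', hc0, h0, h2, Finset.sum_add_distrib]

include hinj himg hAs in
lemma Asum_one (G : Blk → α → γ → ℝ) {a0 : α} (ha0 : a0 ∈ As 1) :
    ∑ y ∈ Φ.filter (fun y => A y = a0), G (M y) (A y) (C y)
      = ∑ c ∈ Cs 1, (G (true, false, false, true) a0 c + G (false, true, true, false) a0 c)
        + ∑ c ∈ Cs 2, G (true, false, true, false) a0 c
        + ∑ c ∈ Cs 0, G (false, true, false, true) a0 c := by
  have h0 : a0 ∉ As 0 := fun h => Finset.disjoint_left.1 (hAs 1 0 (by decide)) ha0 h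
  have h2 : a0 ∉ As 2 := fun h => Finset.disjoint_left.1 (hAs 1 2 (by decide)) ha0 h
  rw [Finset.sum_filter]
  refine (sum_all Φ M A C As Cs hinj himg (fun M0 a c => if a = a0 then G M0 a c else 0)).trans ?_
  simp only [sum_ite_const_cond, Finset.sum_ite_eq']
  simp [ha0, h0, h2, Finset.sum_add_distrib]

include hinj himg hAs in
lemma Asum_two (G : Blk → α → γ → ℝ) {a0 : α} (ha0 : a0 ∈ As 2) :
    ∑ y ∈ Φ.filter (fun y => A y = a0), G (M y) (A y) (C y)
      = ∑ c ∈ Cs 1, G (true, true, false, false) a0 c := by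
  have h0 : a0 ∉ As 0 := fun h => Finset.disjoint_left.1 (hAs 2 0 (by decide)) ha0 h
  have h1 : a0 ∉ As 1 := fun h => Finset.disjoint_left.1 (hAs 2 1 (by decide)) ha0 h
  rw [Finset.sum_filter]
  refine (sum_all Φ M A C As Cs hinj himg (fun M0 a c => if a = a0 then G M0 a c else 0)).trans ?_
  simp only [sum_ite_const_cond, Finset.sum_ite_eq']
  simp [ha0, h0, h1]

include hinj himg hAs in
lemma Asum_zero (G : Blk → α → γ → ℝ) {a0 : α} (ha0 : a0 ∈ As 0) :
    ∑ y ∈ Φ.filter (fun y => A y = a0), G (M y) (A y) (C y)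
      = ∑ c ∈ Cs 1, G (false, false, true, true) a0 c := by
  have h2 : a0 ∉ As 2 := fun h => Finset.disjoint_left.1 (hAs 0 2 (by decide)) ha0 h
  have h1 : a0 ∉ As 1 := fun h => Finset.disjoint_left.1 (hAs 0 1 (by decide)) ha0 h
  rw [Finset.sum_filter]
  refine (sum_all Φ M A C As Cs hinj himg (fun M0 a c => if a = a0 then G M0 a c else 0)).trans ?_
  simp only [sum_ite_const_cond, Finset.sum_ite_eq']
  simp [ha0, h2, h1]

include hinj himg hAs in
lemma Asumz_one (G : Blk → α → γ → ℝ) {a0 : α} (ha0 : a0 ∈ As 1) :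
    ∑ y ∈ Φ.filter (fun y => A y = a0 ∧ Crest.Agent.Helper67.SW.IsCtr (M y)), G (M y) (A y) (C y)
      = ∑ c ∈ Cs 1, (G (true, false, false, true) a0 c + G (false, true, true, false) a0 c) := by
  have h0 : a0 ∉ As 0 := fun h => Finset.disjoint_left.1 (hAs 1 0 (by decide)) ha0 h
  have h2 : a0 ∉ As 2 := fun h => Finset.disjoint_left.1 (hAs 1 2 (by decide)) ha0 h
  rw [Finset.sum_filter]
  refine (sum_all Φ M A C As Cs hinj himg
    (fun M0 a c => if a = a0 ∧ Crest.Agent.Helper67.SW.IsCtr M0 then G M0 a c else 0)).trans ?_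
  simp only [Crest.Agent.Helper67.SW.IsCtr, ite_and, sum_ite_const_cond, Finset.sum_ite_eq']
  simp [ha0, h0, h2, Finset.sum_add_distrib]


/-! ### the cross coordinates of helper89's `cross_ineq` -/

/-- the `C`-class average of `f`, as a function of the class label (the expression of
`TwoPairSpec`). -/
noncomputable def avC (c : γ) : ℝ :=
  (∑ y ∈ Φ.filter (fun y => C y = c), f y) / ((Φ.filter (fun y => C y = c)).card : ℝ)

/-- the `A`-class average of `f`, as a function of the class label. -/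
noncomputable def avA (a : α) : ℝ :=
  (∑ y ∈ Φ.filter (fun y => A y = a), f y) / ((Φ.filter (fun y => A y = a)).card : ℝ)

/-- `f` on the centre cell `cp`. -/
noncomputable def fP (a : α) (c : γ) : ℝ := Fv Φ M A C f (true, false, false, true) a c

/-- `f` on the centre cell `cm`. -/
noncomputable def fM (a : α) (c : γ) : ℝ := Fv Φ M A C f (false, true, true, false) a c

/-- `f` on the vertical arm (cells `up`, `dn`). -/
noncomputable def fV (a : α) (c : γ) : ℝ :=
  Fv Φ M A C f (if a ∈ As 2 then (true, true, false, false) else (false, false, true, true)) a c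

/-- `f` on the horizontal arm (cells `lf`, `rt`). -/
noncomputable def fH (a : α) (c : γ) : ℝ :=
  Fv Φ M A C f (if c ∈ Cs 2 then (true, false, true, false) else (false, true, false, true)) a c

include hAs in
lemma sum_Xv (g : Blk → α → ℝ) :
    ∑ a ∈ As 0 ∪ As 2,
        g (if a ∈ As 2 then (true, true, false, false) else (false, false, true, true)) a
      = ∑ a ∈ As 2, g (true, true, false, false) a + ∑ a ∈ As 0, g (false, false, true, true) a := by
  rw [Finset.sum_union (hAs 0 2 (by decide)), add_comm]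
  congr 1
  · exact Finset.sum_congr rfl (fun a ha => by rw [if_pos ha])
  · refine Finset.sum_congr rfl (fun a ha => ?_)
    rw [if_neg (fun h => Finset.disjoint_left.1 (hAs 0 2 (by decide)) ha h)]

include hCs in
lemma sum_Yh (g : Blk → γ → ℝ) :
    ∑ c ∈ Cs 0 ∪ Cs 2,
        g (if c ∈ Cs 2 then (true, false, true, false) else (false, true, false, true)) c
      = ∑ c ∈ Cs 2, g (true, false, true, false) c + ∑ c ∈ Cs 0, g (false, true, false, true) c := by
  rw [Finset.sum_union (hCs 0 2 (by decide)), add_comm]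
  congr 1
  · exact Finset.sum_congr rfl (fun c hc => by rw [if_pos hc])
  · refine Finset.sum_congr rfl (fun c hc => ?_)
    rw [if_neg (fun h => Finset.disjoint_left.1 (hCs 0 2 (by decide)) hc h)]

include hinj in
lemma sum_filter_f (p : X → Prop) [DecidablePred p] :
    ∑ y ∈ Φ.filter p, f y = ∑ y ∈ Φ.filter p, Fv Φ M A C f (M y) (A y) (C y) :=
  Finset.sum_congr rfl (fun y hy => (Fv_self Φ M A C f hinj (Finset.mem_filter.1 hy).1).symm)

lemma card_filter_one (p : X → Prop) [DecidablePred p] :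
    ((Φ.filter p).card : ℝ) = ∑ y ∈ Φ.filter p, (1 : ℝ) := by
  simp

include hinj himg hAs hCs in
lemma avC_one {c0 : γ} (hc0 : c0 ∈ Cs 1) :
    avC Φ C f c0 = ((∑ a ∈ As 0 ∪ As 2, fV Φ M A C As f a c0)
        + ∑ a ∈ As 1, (fP Φ M A C f a c0 + fM Φ M A C f a c0))
        / (((As 0 ∪ As 2).card : ℝ) + 2 * ((As 1).card : ℝ)) := by
  unfold avC
  rw [sum_filter_f Φ M A C f hinj, Csum_one Φ M A C As Cs hinj himg hCs _ hc0,
    card_filter_one, Csum_one Φ M A C As Cs hinj himg hCs (fun _ _ _ => (1 : ℝ)) hc0]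
  have hV := sum_Xv As hAs (fun M0 a => Fv Φ M A C f M0 a c0)
  have hcard : ((As 0 ∪ As 2).card : ℝ) = (As 0).card + (As 2).card := by
    rw [Finset.card_union_of_disjoint (hAs 0 2 (by decide))]; push_cast; ring
  unfold fV fP fM
  rw [hV, hcard]
  congr 1
  · ring
  · simp only [Finset.sum_const, nsmul_eq_mul, mul_one]; ring

include hinj himg hAs hCs in
lemma avA_one {a0 : α} (ha0 : a0 ∈ As 1) :
    avA Φ A f a0 = ((∑ c ∈ Cs 0 ∪ Cs 2, fH Φ M A C Cs f a0 c)
        + ∑ c ∈ Cs 1, (fP Φ M A C f a0 c + fM Φ M A C f a0 c))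
        / (((Cs 0 ∪ Cs 2).card : ℝ) + 2 * ((Cs 1).card : ℝ)) := by
  unfold avA
  rw [sum_filter_f Φ M A C f hinj, Asum_one Φ M A C As Cs hinj himg hAs _ ha0,
    card_filter_one, Asum_one Φ M A C As Cs hinj himg hAs (fun _ _ _ => (1 : ℝ)) ha0]
  have hH := sum_Yh Cs hCs (fun M0 c => Fv Φ M A C f M0 a0 c)
  have hcard : ((Cs 0 ∪ Cs 2).card : ℝ) = (Cs 0).card + (Cs 2).card := by
    rw [Finset.card_union_of_disjoint (hCs 0 2 (by decide))]; push_cast; ring
  unfold fH fP fM
  rw [hH, hcard]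
  congr 1
  · ring
  · simp only [Finset.sum_const, nsmul_eq_mul, mul_one]; ring

include hinj himg hAs hCs in
lemma avC_H {c0 : γ} (hc0 : c0 ∈ Cs 0 ∪ Cs 2) :
    avC Φ C f c0 = (∑ a ∈ As 1, fH Φ M A C Cs f a c0) / ((As 1).card : ℝ) := by
  unfold avC fH
  rcases Finset.mem_union.1 hc0 with h | h
  · have h2 : c0 ∉ Cs 2 := fun h' => Finset.disjoint_left.1 (hCs 0 2 (by decide)) h h'
    rw [sum_filter_f Φ M A C f hinj, Csum_zero Φ M A C As Cs hinj himg hCs _ h,
      card_filter_one, Csum_zero Φ M A C As Cs hinj himg hCs (fun _ _ _ => (1 : ℝ)) h]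
    simp only [if_neg h2, Finset.sum_const, nsmul_eq_mul, mul_one]
  · rw [sum_filter_f Φ M A C f hinj, Csum_two Φ M A C As Cs hinj himg hCs _ h,
      card_filter_one, Csum_two Φ M A C As Cs hinj himg hCs (fun _ _ _ => (1 : ℝ)) h]
    simp only [if_pos h, Finset.sum_const, nsmul_eq_mul, mul_one]

include hinj himg hAs hCs in
lemma avA_V {a0 : α} (ha0 : a0 ∈ As 0 ∪ As 2) :
    avA Φ A f a0 = (∑ c ∈ Cs 1, fV Φ M A C As f a0 c) / ((Cs 1).card : ℝ) := by
  unfold avA fV
  rcases Finset.mem_union.1 ha0 with h | h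
  · have h2 : a0 ∉ As 2 := fun h' => Finset.disjoint_left.1 (hAs 0 2 (by decide)) h h'
    rw [sum_filter_f Φ M A C f hinj, Asum_zero Φ M A C As Cs hinj himg hAs _ h,
      card_filter_one, Asum_zero Φ M A C As Cs hinj himg hAs (fun _ _ _ => (1 : ℝ)) h]
    simp only [if_neg h2, Finset.sum_const, nsmul_eq_mul, mul_one]
  · rw [sum_filter_f Φ M A C f hinj, Asum_two Φ M A C As Cs hinj himg hAs _ h,
      card_filter_one, Asum_two Φ M A C As Cs hinj himg hAs (fun _ _ _ => (1 : ℝ)) h]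
    simp only [if_pos h, Finset.sum_const, nsmul_eq_mul, mul_one]

include hinj himg hCs in
lemma ctrC_one {c0 : γ} (hc0 : c0 ∈ Cs 1) :
    (∑ y ∈ Φ.filter (fun y => C y = c0 ∧ Crest.Agent.Helper67.SW.IsCtr (M y)), f y) /
        ((Φ.filter (fun y => C y = c0 ∧ Crest.Agent.Helper67.SW.IsCtr (M y))).card : ℝ)
      = (∑ a ∈ As 1, (fP Φ M A C f a c0 + fM Φ M A C f a c0)) / (2 * ((As 1).card : ℝ)) := by
  rw [sum_filter_f Φ M A C f hinj, Csumz_one Φ M A C As Cs hinj himg hCs _ hc0,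
    card_filter_one, Csumz_one Φ M A C As Cs hinj himg hCs (fun _ _ _ => (1 : ℝ)) hc0]
  unfold fP fM
  congr 1
  simp only [Finset.sum_const, nsmul_eq_mul, mul_one]; ring

include hinj himg hAs in
lemma ctrA_one {a0 : α} (ha0 : a0 ∈ As 1) :
    (∑ y ∈ Φ.filter (fun y => A y = a0 ∧ Crest.Agent.Helper67.SW.IsCtr (M y)), f y) /
        ((Φ.filter (fun y => A y = a0 ∧ Crest.Agent.Helper67.SW.IsCtr (M y))).card : ℝ)
      = (∑ c ∈ Cs 1, (fP Φ M A C f a0 c + fM Φ M A C f a0 c)) / (2 * ((Cs 1).card : ℝ)) := by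
  rw [sum_filter_f Φ M A C f hinj, Asumz_one Φ M A C As Cs hinj himg hAs _ ha0,
    card_filter_one, Asumz_one Φ M A C As Cs hinj himg hAs (fun _ _ _ => (1 : ℝ)) ha0]
  unfold fP fM
  congr 1
  simp only [Finset.sum_const, nsmul_eq_mul, mul_one]; ring

include hinj himg in
/-- a sum over the centre states of a function of the coordinates `(A, C)`. -/
lemma sum_ctr (G2 : α → γ → ℝ) :
    ∑ x ∈ Φ.filter (fun x => Crest.Agent.Helper67.SW.IsCtr (M x)), G2 (A x) (C x)
      = ∑ a ∈ As 1, ∑ c ∈ Cs 1, 2 * G2 a c := by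
  rw [Finset.sum_filter]
  refine (sum_all Φ M A C As Cs hinj himg
    (fun M0 a c => if Crest.Agent.Helper67.SW.IsCtr M0 then G2 a c else 0)).trans ?_
  simp [Crest.Agent.Helper67.SW.IsCtr, two_mul, Finset.sum_add_distrib]

/-! ### the four pieces of `TwoPairSpec` in cross coordinates -/

include hinj himg in
lemma T1 (sw : X → X)
    (hsw : ∀ x ∈ Φ, M x = (true, false, false, true) →
        sw x ∈ Φ ∧ M (sw x) = (false, true, true, false) ∧ A (sw x) = A x ∧ C (sw x) = C x) :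
    ∑ x ∈ Φ.filter (fun x => M x = (true, false, false, true)), (f x - f (sw x)) ^ 2
      = ∑ a ∈ As 1, ∑ c ∈ Cs 1, (fP Φ M A C f a c - fM Φ M A C f a c) ^ 2 := by
  have h1 : ∀ x ∈ Φ.filter (fun x => M x = (true, false, false, true)),
      (f x - f (sw x)) ^ 2
        = (fP Φ M A C f (A x) (C x) - fM Φ M A C f (A x) (C x)) ^ 2 := by
    intro x hx
    rw [Finset.mem_filter] at hx
    obtain ⟨h2, h3, h4, h5⟩ := hsw x hx.1 hx.2
    have e1 := Fv_self Φ M A C f hinj hx.1
    have e2 := Fv_self Φ M A C f hinj h2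
    rw [hx.2] at e1
    rw [h3, h4, h5] at e2
    unfold fP fM
    rw [e1, e2]
  rw [Finset.sum_congr rfl h1,
    sum_cell Φ M A C 2 As Cs hinj himg (true, false, false, true)
      (fun a c => (fP Φ M A C f a c - fM Φ M A C f a c) ^ 2)]
  simp [tot, rho, kap]

include hinj himg hCs in
lemma T2 :
    ∑ x ∈ Φ.filter (fun x => Crest.Agent.Helper67.SW.IsCtr (M x)),
          ((∑ y ∈ Φ.filter (fun y => C y = C x ∧ Crest.Agent.Helper67.SW.IsCtr (M y)), f y) /
              ((Φ.filter (fun y => C y = C x ∧ Crest.Agent.Helper67.SW.IsCtr (M y))).card : ℝ)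
            - (∑ y ∈ Φ.filter (fun y => C y = C x), f y) /
              ((Φ.filter (fun y => C y = C x)).card : ℝ)) ^ 2
      = ∑ x ∈ As 1, ∑ y ∈ Cs 1,
          2 * ((∑ x ∈ As 1, (fP Φ M A C f x y + fM Φ M A C f x y)) / (2 * ((As 1).card : ℝ))
            - avC Φ C f y) ^ 2 := by
  rw [sum_ctr Φ M A C As Cs hinj himg (fun _ c =>
      ((∑ y ∈ Φ.filter (fun y => C y = c ∧ Crest.Agent.Helper67.SW.IsCtr (M y)), f y) /
              ((Φ.filter (fun y => C y = c ∧ Crest.Agent.Helper67.SW.IsCtr (M y))).card : ℝ)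
            - (∑ y ∈ Φ.filter (fun y => C y = c), f y) /
              ((Φ.filter (fun y => C y = c)).card : ℝ)) ^ 2)]
  refine Finset.sum_congr rfl (fun a _ => Finset.sum_congr rfl (fun c hc => ?_))
  rw [ctrC_one Φ M A C As Cs f hinj himg hCs hc]
  rfl

include hinj himg hAs in
lemma T3 :
    ∑ x ∈ Φ.filter (fun x => Crest.Agent.Helper67.SW.IsCtr (M x)),
          ((∑ y ∈ Φ.filter (fun y => A y = A x ∧ Crest.Agent.Helper67.SW.IsCtr (M y)), f y) /
              ((Φ.filter (fun y => A y = A x ∧ Crest.Agent.Helper67.SW.IsCtr (M y))).card : ℝ)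
            - (∑ y ∈ Φ.filter (fun y => A y = A x), f y) /
              ((Φ.filter (fun y => A y = A x)).card : ℝ)) ^ 2
      = ∑ x ∈ As 1, ∑ y ∈ Cs 1,
          2 * ((∑ y ∈ Cs 1, (fP Φ M A C f x y + fM Φ M A C f x y)) / (2 * ((Cs 1).card : ℝ))
            - avA Φ A f x) ^ 2 := by
  rw [sum_ctr Φ M A C As Cs hinj himg (fun a _ =>
      ((∑ y ∈ Φ.filter (fun y => A y = a ∧ Crest.Agent.Helper67.SW.IsCtr (M y)), f y) /
              ((Φ.filter (fun y => A y = a ∧ Crest.Agent.Helper67.SW.IsCtr (M y))).card : ℝ)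
            - (∑ y ∈ Φ.filter (fun y => A y = a), f y) /
              ((Φ.filter (fun y => A y = a)).card : ℝ)) ^ 2)]
  refine Finset.sum_congr rfl (fun a ha => Finset.sum_congr rfl (fun c _ => ?_))
  rw [ctrA_one Φ M A C As Cs f hinj himg hAs ha]
  rfl

include hinj himg hAs hCs in
lemma T4 :
    ∑ x ∈ Φ, (f x - avC Φ C f (C x)) * (f x - avA Φ A f (A x))
      = (∑ x' ∈ As 0 ∪ As 2, ∑ y ∈ Cs 1,
            (fV Φ M A C As f x' y - avC Φ C f y) * (fV Φ M A C As f x' y - avA Φ A f x'))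
        + (∑ x ∈ As 1, ∑ y' ∈ Cs 0 ∪ Cs 2,
            (fH Φ M A C Cs f x y' - avC Φ C f y') * (fH Φ M A C Cs f x y' - avA Φ A f x))
        + (∑ x ∈ As 1, ∑ y ∈ Cs 1,
            ((fP Φ M A C f x y - avC Φ C f y) * (fP Φ M A C f x y - avA Φ A f x)
              + (fM Φ M A C f x y - avC Φ C f y) * (fM Φ M A C f x y - avA Φ A f x))) := by
  have h1 : ∀ x ∈ Φ, (f x - avC Φ C f (C x)) * (f x - avA Φ A f (A x))
      = (Fv Φ M A C f (M x) (A x) (C x) - avC Φ C f (C x))
          * (Fv Φ M A C f (M x) (A x) (C x) - avA Φ A f (A x)) :=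
    fun x hx => by rw [Fv_self Φ M A C f hinj hx]
  rw [Finset.sum_congr rfl h1,
    sum_all Φ M A C As Cs hinj himg
      (fun M0 a c => (Fv Φ M A C f M0 a c - avC Φ C f c) * (Fv Φ M A C f M0 a c - avA Φ A f a))]
  have hV := sum_Xv As hAs (fun M0 a => ∑ c ∈ Cs 1,
      (Fv Φ M A C f M0 a c - avC Φ C f c) * (Fv Φ M A C f M0 a c - avA Φ A f a))
  have hH : ∀ a, _ := fun a => sum_Yh Cs hCs (fun M0 c =>
      (Fv Φ M A C f M0 a c - avC Φ C f c) * (Fv Φ M A C f M0 a c - avA Φ A f a))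
  unfold fV fH fP fM
  rw [hV, Finset.sum_congr rfl (fun a _ => hH a)]
  simp only [Finset.sum_add_distrib]
  ring

end Diamond

/-- **The two-pair inequality on a coordinatised fibre**: helper67's `TwoPairSpec` holds. -/
theorem twoPairSpec : Crest.Agent.Helper67.SW.TwoPairSpec := by
  intro X α γ _ _ Φ M A C m As Cs sw f hinj himg hAs hCs hsw
  have himg' : ∀ M0 a c, (∃ x ∈ Φ, M x = M0 ∧ A x = a ∧ C x = c) ↔
      (tot M0 = m ∧ a ∈ As (rho M0) ∧ c ∈ Cs (kap M0)) := himg
  by_cases hm : m = 2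
  · subst hm
    have cross := Crest.Agent.Helper89.SW.cross_ineq (As 1) (As 0 ∪ As 2) (Cs 1) (Cs 0 ∪ Cs 2)
      (fV Φ M A C As f) (fH Φ M A C Cs f) (fP Φ M A C f) (fM Φ M A C f)
      (avC Φ C f) (avA Φ A f) (avA Φ A f) (avC Φ C f)
      (fun y hy => avC_one Φ M A C As Cs f hinj himg' hAs hCs hy)
      (fun x hx => avA_one Φ M A C As Cs f hinj himg' hAs hCs hx)
      (fun x' hx' => avA_V Φ M A C As Cs f hinj himg' hAs hCs hx')
      (fun y' hy' => avC_H Φ M A C As Cs f hinj himg' hAs hCs hy')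
    have e1 := T1 Φ M A C As Cs f hinj himg' sw hsw
    have e2 := T2 Φ M A C As Cs f hinj himg' hCs
    have e3 := T3 Φ M A C As Cs f hinj himg' hAs
    have e4 : ∑ x ∈ Φ,
          (f x - (∑ y ∈ Φ.filter (fun y => C y = C x), f y) /
              ((Φ.filter (fun y => C y = C x)).card : ℝ)) *
          (f x - (∑ y ∈ Φ.filter (fun y => A y = A x), f y) /
              ((Φ.filter (fun y => A y = A x)).card : ℝ)) = _ :=
      T4 Φ M A C As Cs f hinj himg' hAs hCs
    rw [e1, e2, e3, e4]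
    exact cross
  · have hcoord : ∀ x ∈ Φ, tot (M x) = m ∧ A x ∈ As (rho (M x)) ∧ C x ∈ Cs (kap (M x)) :=
      fun x hx => coords_mem Φ M A C m As Cs himg' hx
    have hnc : ∀ x ∈ Φ, ¬ Crest.Agent.Helper67.SW.IsCtr (M x) := by
      intro x hx hc
      have h1 := (hcoord x hx).1
      rcases hc with hc | hc
      · rw [hc] at h1
        exact hm (by simpa [tot] using h1.symm)
      · rw [hc] at h1
        exact hm (by simpa [tot] using h1.symm)
    have hE1 : Φ.filter (fun x => M x = (true, false, false, true)) = ∅ :=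
      Finset.filter_eq_empty_iff.2 (fun x hx h => hnc x hx (Or.inl h))
    have hE2 : Φ.filter (fun x => Crest.Agent.Helper67.SW.IsCtr (M x)) = ∅ :=
      Finset.filter_eq_empty_iff.2 (fun x hx h => hnc x hx h)
    rw [hE1, hE2]
    simp only [Finset.sum_empty, sub_zero]
    have hrho : ∀ x ∈ Φ, ∀ y ∈ Φ, A x = A y → rho (M x) = rho (M y) := by
      intro x hx y hy h
      by_contra hne
      exact Finset.disjoint_left.1 (hAs _ _ hne) (hcoord x hx).2.1 (h ▸ (hcoord y hy).2.1)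
    have hkap : ∀ x ∈ Φ, ∀ y ∈ Φ, C x = C y → kap (M x) = kap (M y) := by
      intro x hx y hy h
      by_contra hne
      exact Finset.disjoint_left.1 (hCs _ _ hne) (hcoord x hx).2.2 (h ▸ (hcoord y hy).2.2)
    have hinj' : ∀ x ∈ Φ, ∀ y ∈ Φ, A x = A y → C x = C y → x = y := by
      intro x hx y hy h1 h2
      exact hinj x hx y hy
        (blk_inj _ _ ((hcoord x hx).1.trans (hcoord y hy).1.symm)
          (by rw [(hcoord x hx).1]; exact hm) (hrho x hx y hy h1) (hkap x hx y hy h2)) h1 h2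
    have hsurj : ∀ x ∈ Φ, ∀ y ∈ Φ, ∃ z ∈ Φ, A z = A x ∧ C z = C y := by
      intro x hx y hy
      obtain ⟨M0, h1, h2, h3⟩ := blk_rect (M x) (M y)
        ((hcoord x hx).1.trans (hcoord y hy).1.symm) (by rw [(hcoord x hx).1]; exact hm)
      obtain ⟨z, hz, -, hzA, hzC⟩ := (himg' M0 (A x) (C y)).2
        ⟨h1.trans (hcoord x hx).1, h2 ▸ (hcoord x hx).2.1, h3 ▸ (hcoord y hy).2.2⟩
      exact ⟨z, hz, hzA, hzC⟩
    have hpos := Crest.Agent.Helper38.SW.rect_pos Φ A C hinj' hsurj f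
    exact mul_nonneg (by norm_num) hpos


end Crest.Agent.Helper77.S0453.TP
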